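import Mathlib

/-!
P147, module ATOM: atoms of sums of independent signs in three directions are `O(m^(-3/2))`.
-/

open Finset

namespace Vale.Agent.Lib.P147

/-- expectation of `f (S_n)`, `S_n` a sum of `n` independent signs, `P(+) = p`, `P(-) = q` -/
noncomputable def atomE (p q : ℝ) : ℕ → (ℤ → ℝ) → ℝ
  | 0, f => f 0
  | n + 1, f => p * atomE p q n (fun w => f (1 + w)) + q * atomE p q n (fun w => f (-1 + w))

theorem atomE_add (p q : ℝ) (n : ℕ) : ∀ f g : ℤ → ℝ,
    atomE p q n (fun w => f w + g w) = atomE p q n f + atomE p q n g := by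
  induction n with
  | zero => intro f g; rfl
  | succ n ih =>
    intro f g
    simp only [atomE]
    rw [ih (fun w => f (1 + w)) (fun w => g (1 + w)), ih (fun w => f (-1 + w)) (fun w => g (-1 + w))]
    ring

theorem atomE_smul (p q : ℝ) (n : ℕ) : ∀ (c : ℝ) (f : ℤ → ℝ),
    atomE p q n (fun w => c * f w) = c * atomE p q n f := by
  induction n with
  | zero => intro c f; rfl
  | succ n ih =>
    intro c f
    simp only [atomE]
    rw [ih c (fun w => f (1 + w)), ih c (fun w => f (-1 + w))]
    ring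

theorem atomE_mono {p q : ℝ} (hp : 0 ≤ p) (hq : 0 ≤ q) (n : ℕ) : ∀ f g : ℤ → ℝ,
    (∀ w, f w ≤ g w) → atomE p q n f ≤ atomE p q n g := by
  induction n with
  | zero => intro f g h; exact h 0
  | succ n ih =>
    intro f g h
    simp only [atomE]
    exact add_le_add (mul_le_mul_of_nonneg_left (ih _ _ fun w => h _) hp)
      (mul_le_mul_of_nonneg_left (ih _ _ fun w => h _) hq)

theorem atomE_const {p q : ℝ} (h : p + q = 1) (n : ℕ) (c : ℝ) :
    atomE p q n (fun _ => c) = c := by
  induction n with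
  | zero => rfl
  | succ n ih =>
    simp only [atomE]
    rw [ih, ← add_mul, h, one_mul]

/-- Stein identity -/
theorem atomE_stein {p q : ℝ} (h : p + q = 1) (n : ℕ) : ∀ f : ℤ → ℝ,
    atomE p q (n + 1) (fun w => ((w : ℝ) - (n + 1) * (p - q)) * f w)
      = 2 * (n + 1) * p * q * (atomE p q n (fun w => f (1 + w)) - atomE p q n (fun w => f (-1 + w))) := by
  induction n with
  | zero =>
    intro f
    simp only [atomE]
    have hq : q = 1 - p := by linarith
    subst hq
    push_cast
    ring
  | succ n ih =>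
    intro f
    have e1 : atomE p q (n + 1 + 1) (fun w => ((w : ℝ) - (((n + 1 : ℕ) : ℝ) + 1) * (p - q)) * f w)
        = p * atomE p q (n + 1) (fun w => (((1 + w : ℤ) : ℝ) - (((n + 1 : ℕ) : ℝ) + 1) * (p - q)) *
            f (1 + w))
        + q * atomE p q (n + 1) (fun w => (((-1 + w : ℤ) : ℝ) - (((n + 1 : ℕ) : ℝ) + 1) * (p - q)) *
            f (-1 + w)) := rfl
    have e2 : atomE p q (n + 1) (fun w => (((1 + w : ℤ) : ℝ) - (((n + 1 : ℕ) : ℝ) + 1) * (p - q)) *
            f (1 + w)) = atomE p q (n + 1) (fun w => ((w : ℝ) - (n + 1) * (p - q)) * f (1 + w))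
            + (1 - (p - q)) * atomE p q (n + 1) (fun w => f (1 + w)) := by
      rw [← atomE_smul, ← atomE_add]
      congr 1
      funext w
      push_cast
      ring
    have e3 : atomE p q (n + 1) (fun w => (((-1 + w : ℤ) : ℝ) - (((n + 1 : ℕ) : ℝ) + 1) * (p - q)) *
            f (-1 + w)) = atomE p q (n + 1) (fun w => ((w : ℝ) - (n + 1) * (p - q)) * f (-1 + w))
            + (-1 - (p - q)) * atomE p q (n + 1) (fun w => f (-1 + w)) := by
      rw [← atomE_smul, ← atomE_add]
      congr 1
      funext w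
      push_cast
      ring
    have e4 := ih (fun w => f (1 + w))
    have e5 := ih (fun w => f (-1 + w))
    have e6 : atomE p q (n + 1) (fun w => f (1 + w)) = p * atomE p q n (fun w => f (1 + (1 + w)))
        + q * atomE p q n (fun w => f (1 + (-1 + w))) := rfl
    have e7 : atomE p q (n + 1) (fun w => f (-1 + w)) = p * atomE p q n (fun w => f (-1 + (1 + w)))
        + q * atomE p q n (fun w => f (-1 + (-1 + w))) := rfl
    have e8 : (fun w : ℤ => f (-1 + (1 + w))) = fun w => f (1 + (-1 + w)) := by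
      funext w
      congr 1
      ring
    rw [e1, e2, e3, e4, e5]
    have hq : 1 - (p - q) = 2 * q := by linarith
    have hp : -1 - (p - q) = -(2 * p) := by linarith
    rw [hq, hp]
    rw [e8] at e7
    simp only [e8]
    push_cast
    have e6' := e6
    have e7' := e7
    generalize atomE p q (n + 1) (fun w => f (1 + w)) = A at *
    generalize atomE p q (n + 1) (fun w => f (-1 + w)) = B at *
    generalize atomE p q n (fun w => f (1 + (1 + w))) = X at *
    generalize atomE p q n (fun w => f (1 + (-1 + w))) = Y at *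
    generalize atomE p q n (fun w => f (-1 + (-1 + w))) = Z at *
    rw [e6', e7']
    ring

theorem atomE_var {p q : ℝ} (h : p + q = 1) (n : ℕ) :
    atomE p q n (fun w => ((w : ℝ) - n * (p - q)) ^ 2) = 4 * n * p * q := by
  cases n with
  | zero => simp [atomE]
  | succ n =>
    have e := atomE_stein h n (fun w => (w : ℝ) - (n + 1) * (p - q))
    have e0 : atomE p q (n + 1) (fun w => ((w : ℝ) - ((n + 1 : ℕ) : ℝ) * (p - q)) ^ 2)
        = atomE p q (n + 1) (fun w => ((w : ℝ) - (n + 1) * (p - q)) * ((w : ℝ) - (n + 1) * (p - q))) := by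
      congr 1
      funext w
      push_cast
      ring
    rw [e0, e]
    have e1 : atomE p q n (fun w => ((1 + w : ℤ) : ℝ) - (n + 1) * (p - q))
        = atomE p q n (fun w => ((-1 + w : ℤ) : ℝ) - (n + 1) * (p - q)) + 2 := by
      have := atomE_add p q n (fun w => ((-1 + w : ℤ) : ℝ) - (n + 1) * (p - q)) (fun _ => 2)
      rw [atomE_const h] at this
      rw [← this]
      congr 1
      funext w
      push_cast
      ring
    rw [e1]
    push_cast
    ring

/-- atoms of one sum -/
theorem atomE_le {p q : ℝ} (hp : 0 < p) (hq : 0 < q) (h : p + q = 1) (n : ℕ) (v : ℤ) :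
    atomE p q n (fun w => if w = v then 1 else 0) ≤ 1 / Real.sqrt ((n + 1) * (p * q)) := by
  set lam : ℝ := Real.sqrt ((n + 1) * (p * q)) with hlam
  have hpos : 0 < ((n:ℝ) + 1) * (p * q) := by positivity
  have hl : 0 < lam := Real.sqrt_pos.2 hpos
  have hl2 : lam ^ 2 = (n + 1) * (p * q) := Real.sq_sqrt hpos.le
  set f : ℤ → ℝ := fun w => if v + 1 ≤ w then 1 else 0 with hf
  have h1 : atomE p q n (fun w => if w = v then 1 else 0)
      ≤ atomE p q n (fun w => f (1 + w)) - atomE p q n (fun w => f (-1 + w)) := by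
    have h2 := atomE_add p q n (fun w => f (1 + w)) (fun w => -1 * f (-1 + w))
    rw [atomE_smul] at h2
    have h3 : atomE p q n (fun w => f (1 + w)) - atomE p q n (fun w => f (-1 + w))
        = atomE p q n (fun w => f (1 + w) + -1 * f (-1 + w)) := by rw [h2]; ring
    rw [h3]
    refine atomE_mono hp.le hq.le n _ _ fun w => ?_
    simp only [hf]
    split_ifs <;> first | (exfalso; omega) | norm_num
  have h4 := atomE_stein h n f
  have h5 : atomE p q (n + 1) (fun w => ((w : ℝ) - (n + 1) * (p - q)) * f w)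
      ≤ atomE p q (n + 1) (fun w => (1 / (4 * lam)) * ((w : ℝ) - ((n + 1 : ℕ) : ℝ) * (p - q)) ^ 2 + lam) := by
    refine atomE_mono hp.le hq.le _ _ _ fun w => ?_
    have h6 : ((w : ℝ) - (n + 1) * (p - q)) ≤
        (1 / (4 * lam)) * ((w : ℝ) - ((n + 1 : ℕ) : ℝ) * (p - q)) ^ 2 + lam := by
      push_cast
      set x : ℝ := (w : ℝ) - (n + 1) * (p - q) with hx
      have h7 : 0 ≤ (1 / (4 * lam)) * (x - 2 * lam) ^ 2 := by positivity
      have h8 : (1 / (4 * lam)) * (x - 2 * lam) ^ 2 = (1 / (4 * lam)) * x ^ 2 - x + lam := by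
        field_simp
        ring
      linarith
    have h9 : 0 ≤ (1 / (4 * lam)) * ((w : ℝ) - ((n + 1 : ℕ) : ℝ) * (p - q)) ^ 2 + lam := by positivity
    simp only [hf]
    split_ifs
    · rw [mul_one]; exact h6
    · rw [mul_zero]; exact h9
  have h10 : atomE p q (n + 1) (fun w => (1 / (4 * lam)) * ((w : ℝ) - ((n + 1 : ℕ) : ℝ) * (p - q)) ^ 2 + lam)
      = 2 * lam := by
    rw [atomE_add p q (n + 1) (fun w => (1 / (4 * lam)) * ((w : ℝ) - ((n + 1 : ℕ) : ℝ) * (p - q)) ^ 2)
      (fun _ => lam), atomE_const h, atomE_smul, atomE_var h]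
    have h11 : 4 * ((n + 1 : ℕ) : ℝ) * p * q = 4 * lam ^ 2 := by rw [hl2]; push_cast; ring
    rw [h11]
    field_simp
    ring
  rw [h10, h4] at h5
  have h12 : 2 * ((n:ℝ) + 1) * p * q = 2 * lam ^ 2 := by rw [hl2]; ring
  rw [h12] at h5
  have h13 : lam * (atomE p q n (fun w => f (1 + w)) - atomE p q n (fun w => f (-1 + w))) ≤ 1 := by
    have : (2 * lam) * (lam * (atomE p q n (fun w => f (1 + w)) - atomE p q n (fun w => f (-1 + w))))
        ≤ (2 * lam) * 1 := by nlinarith
    exact le_of_mul_le_mul_left this (by positivity)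
  rw [le_div_iff₀ hl]
  calc atomE p q n (fun w => if w = v then 1 else 0) * lam
      ≤ (atomE p q n (fun w => f (1 + w)) - atomE p q n (fun w => f (-1 + w))) * lam :=
        mul_le_mul_of_nonneg_right h1 hl.le
    _ = lam * (atomE p q n (fun w => f (1 + w)) - atomE p q n (fun w => f (-1 + w))) := mul_comm _ _
    _ ≤ 1 := h13

/-- the expectation as a sum over sign patterns -/
theorem atomE_fin (q : Bool → ℝ) (n : ℕ) : ∀ f : ℤ → ℝ,
    ∑ g : Fin n → Bool, (∏ t, q (g t)) * f (∑ t, (if g t then (1:ℤ) else -1))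
      = atomE (q true) (q false) n f := by
  induction n with
  | zero => intro f; simp [atomE]
  | succ n ih =>
    intro f
    rw [← (Fin.consEquiv (fun _ : Fin (n + 1) => Bool)).sum_comp]
    rw [Fintype.sum_prod_type]
    simp only [Fin.consEquiv_apply, Fin.prod_univ_succ, Fin.sum_univ_succ, Fin.cons_zero,
      Fin.cons_succ, Fintype.sum_bool, atomE]
    rw [← ih, ← ih, Finset.mul_sum, Finset.mul_sum]
    congr 1
    · refine Finset.sum_congr rfl fun g _ => ?_
      simp
      ring
    · refine Finset.sum_congr rfl fun g _ => ?_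
      simp
      ring

theorem atomE_fintype (q : Bool → ℝ) (β : Type) [Fintype β] [DecidableEq β] (f : ℤ → ℝ) :
    ∑ g : β → Bool, (∏ t, q (g t)) * f (∑ t, (if g t then (1:ℤ) else -1))
      = atomE (q true) (q false) (Fintype.card β) f := by
  rw [← atomE_fin q (Fintype.card β) f]
  have e := Fintype.equivFin β
  refine Fintype.sum_equiv (e.arrowCongr (Equiv.refl Bool)) _ _ fun g => ?_
  congr 1
  · exact Fintype.prod_equiv e _ _ fun t => by simp
  · congr 1
    exact Fintype.sum_equiv e _ _ fun t => by simp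

/-- splitting a sign pattern according to the direction -/
def atomSplit {ι : Type} (dir : ι → Fin 3) :
    (ι → Bool) ≃ ((a : Fin 3) → ({t : ι // dir t = a} → Bool)) where
  toFun σ a t := σ t.1
  invFun g t := g (dir t) ⟨t, rfl⟩
  left_inv σ := rfl
  right_inv g := by
    funext a t
    obtain ⟨t, ht⟩ := t
    subst ht
    rfl

theorem atom_factor (q : Fin 3 → Bool → ℝ) (ι : Type) [Fintype ι] [DecidableEq ι]
    (dir : ι → Fin 3) (v : Fin 3 → ℤ) :
    (∑ σ : ι → Bool, if (∀ a, ∑ t ∈ Finset.univ.filter (fun t => dir t = a),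
          (if σ t then (1 : ℤ) else -1) = v a) then ∏ t, q (dir t) (σ t) else 0)
      = ∏ a, atomE (q a true) (q a false) (Finset.univ.filter (fun t => dir t = a)).card
          (fun w => if w = v a then 1 else 0) := by
  have h1 : ∀ a : Fin 3, atomE (q a true) (q a false)
      (Finset.univ.filter (fun t => dir t = a)).card (fun w => if w = v a then 1 else 0)
      = ∑ g : {t : ι // dir t = a} → Bool, (∏ t, q a (g t)) *
          (if (∑ t, (if g t then (1:ℤ) else -1)) = v a then 1 else 0) := by
    intro a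
    rw [atomE_fintype (q a) {t : ι // dir t = a} (fun w => if w = v a then 1 else 0)]
    rw [Fintype.card_subtype]
  rw [Finset.prod_congr rfl fun a _ => h1 a, Fintype.prod_sum]
  refine Fintype.sum_equiv (atomSplit dir) _ _ fun σ => ?_
  rw [Finset.prod_mul_distrib]
  have h2 : ∀ a : Fin 3, (∑ t : {t : ι // dir t = a}, (if (atomSplit dir σ) a t then (1:ℤ) else -1))
      = ∑ t ∈ Finset.univ.filter (fun t => dir t = a), (if σ t then (1 : ℤ) else -1) := by
    intro a
    rw [Finset.sum_subtype (Finset.univ.filter (fun t => dir t = a)) (p := fun t => dir t = a)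
      (by intro x; simp)]
    rfl
  have h3 : ∏ a : Fin 3, ∏ t : {t : ι // dir t = a}, q a ((atomSplit dir σ) a t)
      = ∏ t, q (dir t) (σ t) := by
    rw [← Finset.prod_fiberwise Finset.univ dir (fun t => q (dir t) (σ t))]
    refine Finset.prod_congr rfl fun a _ => ?_
    rw [Finset.prod_subtype (Finset.univ.filter (fun t => dir t = a)) (p := fun t => dir t = a)
      (by intro x; simp)]
    refine Finset.prod_congr rfl fun t _ => ?_
    rw [t.2]
    rfl
  rw [h3]
  have h4 : ∏ a : Fin 3, (if (∑ t : {t : ι // dir t = a},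
      (if (atomSplit dir σ) a t then (1:ℤ) else -1)) = v a then (1:ℝ) else 0)
      = if (∀ a, ∑ t ∈ Finset.univ.filter (fun t => dir t = a),
          (if σ t then (1 : ℤ) else -1) = v a) then 1 else 0 := by
    rw [Finset.prod_congr rfl fun a _ => by rw [h2 a]]
    rw [Fintype.prod_ite_zero]
    simp
  rw [h4]
  split_ifs <;> simp

/-- sums of independent signs: atoms are `O(n^(-1/2))`, in three directions -/
theorem atom (q : Fin 3 → Bool → ℝ) (hq : ∀ a σ, 0 < q a σ) (hq1 : ∀ a, q a true + q a false = 1) :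
    ∃ C : ℝ, 0 ≤ C ∧ ∀ (ι : Type) [Fintype ι] [DecidableEq ι] (dir : ι → Fin 3) (m : ℕ), 0 < m →
      (∀ a, m ≤ (Finset.univ.filter (fun t => dir t = a)).card) → ∀ v : Fin 3 → ℤ,
      (∑ σ : ι → Bool, if (∀ a, ∑ t ∈ Finset.univ.filter (fun t => dir t = a),
          (if σ t then (1 : ℤ) else -1) = v a) then ∏ t, q (dir t) (σ t) else 0)
        ≤ C / (m : ℝ) ^ ((3 : ℝ) / 2) := by
  refine ⟨∏ a, 1 / Real.sqrt (q a true * q a false), Finset.prod_nonneg fun a _ => by positivity, ?_⟩
  intro ι _ _ dir m hm hcard v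
  rw [atom_factor]
  have hm0 : (0:ℝ) < m := by exact_mod_cast hm
  have h1 : (m : ℝ) ^ ((3 : ℝ) / 2) = ∏ _a : Fin 3, Real.sqrt m := by
    rw [Finset.prod_const, Finset.card_univ, Fintype.card_fin, Real.sqrt_eq_rpow,
      ← Real.rpow_natCast, ← Real.rpow_mul hm0.le]
    norm_num
  rw [h1, ← Finset.prod_div_distrib]
  refine Finset.prod_le_prod (fun a _ => ?_) (fun a _ => ?_)
  · have h0 := atomE_mono (hq a true).le (hq a false).le
      (Finset.univ.filter (fun t => dir t = a)).card (fun _ => 0)
      (fun w => if w = v a then 1 else 0) (fun w => by split_ifs <;> norm_num)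
    rwa [atomE_const (hq1 a)] at h0
  · refine (atomE_le (hq a true) (hq a false) (hq1 a) _ (v a)).trans ?_
    have hpq : 0 < q a true * q a false := mul_pos (hq a true) (hq a false)
    rw [div_div, ← Real.sqrt_mul hpq.le]
    refine one_div_le_one_div_of_le (Real.sqrt_pos.2 (by positivity)) (Real.sqrt_le_sqrt ?_)
    have hc : (m : ℝ) ≤ ((Finset.univ.filter (fun t => dir t = a)).card : ℝ) := by
      exact_mod_cast hcard a
    nlinarith

end Vale.Agent.Lib.P147
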