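import Vale.Agent.Lib.P147.Atom

/-!
P147, module ATOM, general number `r` of directions: atoms are `O(m^(-r/2))`.
-/

open Finset

namespace Vale.Agent.Lib.P147

/-- splitting a sign pattern according to the direction -/
def atomSplitN {r : ℕ} {ι : Type} (dir : ι → Fin r) :
    (ι → Bool) ≃ ((a : Fin r) → ({t : ι // dir t = a} → Bool)) where
  toFun σ a t := σ t.1
  invFun g t := g (dir t) ⟨t, rfl⟩
  left_inv σ := rfl
  right_inv g := by
    funext a t
    obtain ⟨t, ht⟩ := t
    subst ht
    rfl

theorem atom_factorN {r : ℕ} (q : Fin r → Bool → ℝ) (ι : Type) [Fintype ι] [DecidableEq ι]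
    (dir : ι → Fin r) (v : Fin r → ℤ) :
    (∑ σ : ι → Bool, if (∀ a, ∑ t ∈ Finset.univ.filter (fun t => dir t = a),
          (if σ t then (1 : ℤ) else -1) = v a) then ∏ t, q (dir t) (σ t) else 0)
      = ∏ a, atomE (q a true) (q a false) (Finset.univ.filter (fun t => dir t = a)).card
          (fun w => if w = v a then 1 else 0) := by
  have h1 : ∀ a : Fin r, atomE (q a true) (q a false)
      (Finset.univ.filter (fun t => dir t = a)).card (fun w => if w = v a then 1 else 0)
      = ∑ g : {t : ι // dir t = a} → Bool, (∏ t, q a (g t)) *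
          (if (∑ t, (if g t then (1:ℤ) else -1)) = v a then 1 else 0) := by
    intro a
    rw [atomE_fintype (q a) {t : ι // dir t = a} (fun w => if w = v a then 1 else 0)]
    rw [Fintype.card_subtype]
  rw [Finset.prod_congr rfl fun a _ => h1 a, Fintype.prod_sum]
  refine Fintype.sum_equiv (atomSplitN dir) _ _ fun σ => ?_
  rw [Finset.prod_mul_distrib]
  have h2 : ∀ a : Fin r, (∑ t : {t : ι // dir t = a}, (if (atomSplitN dir σ) a t then (1:ℤ) else -1))
      = ∑ t ∈ Finset.univ.filter (fun t => dir t = a), (if σ t then (1 : ℤ) else -1) := by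
    intro a
    rw [Finset.sum_subtype (Finset.univ.filter (fun t => dir t = a)) (p := fun t => dir t = a)
      (by intro x; simp)]
    rfl
  have h3 : ∏ a : Fin r, ∏ t : {t : ι // dir t = a}, q a ((atomSplitN dir σ) a t)
      = ∏ t, q (dir t) (σ t) := by
    rw [← Finset.prod_fiberwise Finset.univ dir (fun t => q (dir t) (σ t))]
    refine Finset.prod_congr rfl fun a _ => ?_
    rw [Finset.prod_subtype (Finset.univ.filter (fun t => dir t = a)) (p := fun t => dir t = a)
      (by intro x; simp)]
    refine Finset.prod_congr rfl fun t _ => ?_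
    rw [t.2]
    rfl
  rw [h3]
  have h4 : ∏ a : Fin r, (if (∑ t : {t : ι // dir t = a},
      (if (atomSplitN dir σ) a t then (1:ℤ) else -1)) = v a then (1:ℝ) else 0)
      = if (∀ a, ∑ t ∈ Finset.univ.filter (fun t => dir t = a),
          (if σ t then (1 : ℤ) else -1) = v a) then 1 else 0 := by
    rw [Finset.prod_congr rfl fun a _ => by rw [h2 a]]
    rw [Fintype.prod_ite_zero]
    simp
  rw [h4]
  split_ifs <;> simp

/-- sums of independent signs: atoms are `O(n^(-1/2))`, in `r` directions -/
theorem atomN {r : ℕ} (q : Fin r → Bool → ℝ) (hq : ∀ a σ, 0 < q a σ) (hq1 : ∀ a, q a true + q a false = 1) :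
    ∃ C : ℝ, 0 ≤ C ∧ ∀ (ι : Type) [Fintype ι] [DecidableEq ι] (dir : ι → Fin r) (m : ℕ), 0 < m →
      (∀ a, m ≤ (Finset.univ.filter (fun t => dir t = a)).card) → ∀ v : Fin r → ℤ,
      (∑ σ : ι → Bool, if (∀ a, ∑ t ∈ Finset.univ.filter (fun t => dir t = a),
          (if σ t then (1 : ℤ) else -1) = v a) then ∏ t, q (dir t) (σ t) else 0)
        ≤ C / (m : ℝ) ^ ((r : ℝ) / 2) := by
  refine ⟨∏ a, 1 / Real.sqrt (q a true * q a false), Finset.prod_nonneg fun a _ => by positivity, ?_⟩
  intro ι _ _ dir m hm hcard v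
  rw [atom_factorN]
  have hm0 : (0:ℝ) < m := by exact_mod_cast hm
  have h1 : (m : ℝ) ^ ((r : ℝ) / 2) = ∏ _a : Fin r, Real.sqrt m := by
    rw [Finset.prod_const, Finset.card_univ, Fintype.card_fin, Real.sqrt_eq_rpow,
      ← Real.rpow_natCast, ← Real.rpow_mul hm0.le]
    congr 1
    ring
  rw [h1, ← Finset.prod_div_distrib]
  refine Finset.prod_le_prod (fun a _ => ?_) (fun a _ => ?_)
  · have h0 := atomE_mono (hq a true).le (hq a false).le
      (Finset.univ.filter (fun t => dir t = a)).card (fun _ => 0)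
      (fun w => if w = v a then 1 else 0) (fun w => by split_ifs <;> norm_num)
    rwa [atomE_const (hq1 a)] at h0
  · refine (atomE_le (hq a true) (hq a false) (hq1 a) _ (v a)).trans ?_
    have hpq : 0 < q a true * q a false := mul_pos (hq a true) (hq a false)
    rw [div_div, ← Real.sqrt_mul hpq.le]
    refine one_div_le_one_div_of_le (Real.sqrt_pos.2 (by positivity)) (Real.sqrt_le_sqrt ?_)
    have hc : (m : ℝ) ≤ ((Finset.univ.filter (fun t => dir t = a)).card : ℝ) := by
      exact_mod_cast hcard a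
    nlinarith

end Vale.Agent.Lib.P147
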