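import Vale.Agent.Lib.P147.Turn

/-! P147: counting collisions. -/

open MeasureTheory ProbabilityTheory Filter
open scoped ENNReal

namespace Vale.Agent.Lib.P147

variable {d : ℕ}

/-- lower bound for the number of admissible `z` -/
theorem coll (ν : Measure (ℕ → Step d)) (i : Fin d) (B : Finset (Fin d → ℤ))
    (GY : Set (ℕ → Step d))
    (hGY : ∀ s ∈ GY, ∀ n, pos s n i ≤ 0) (g : ℕ → ℝ≥0∞)
    (hg : ∀ (v : Fin d → ℤ) (lam : ℕ), v i = -(lam : ℤ) →
        ∑ z ∈ B, ν (GY ∩ {s | ∃ n, pos s n = v - z}) ≤ g lam)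
    (L : ℕ) (γ : List (Step d)) (hγ : Hit i ((L : ℤ) + 1) γ) :
    (B.card : ℝ≥0∞) * ν GY ≤ ∑ z ∈ B, ν (Ev (AvQ i γ z)) +
      (∑ k ∈ Finset.range (γ.length + 1), g ((L : ℤ) + 2 - endp (γ.take k) i).toNat + g 0) := by
  set v : ℕ → (Fin d → ℤ) := fun k => endp (γ.take k) - endp γ - vec (i, true) with hv
  have hvi : ∀ k ≤ γ.length, v k i = -(((L : ℤ) + 2 - endp (γ.take k) i).toNat : ℤ) := by
    intro k hk
    have h1 : endp (γ.take k) i ≤ (L : ℤ) + 1 := by
      rcases hk.lt_or_eq with h | h
      · exact (hγ.2 k h).le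
      · rw [h, List.take_length, hγ.1]
    rw [Int.toNat_of_nonneg (by linarith)]
    simp only [hv, Pi.sub_apply, hγ.1, vec_up]
    ring
  have hz : ∀ z ∈ B, ν GY ≤ ν (Ev (AvQ i γ z)) +
      (∑ k ∈ Finset.range (γ.length + 1), ν (GY ∩ {s | ∃ n, pos s n = v k - z}) +
        ν (GY ∩ {s | ∃ n, pos s n = 0 - z})) := by
    intro z _
    have hsub : GY ⊆ Ev (AvQ i γ z) ∪ ((⋃ k ∈ Finset.range (γ.length + 1),
        (GY ∩ {s | ∃ n, pos s n = v k - z})) ∪ (GY ∩ {s | ∃ n, pos s n = 0 - z})) := by
      intro s hs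
      by_cases hev : s ∈ Ev (AvQ i γ z)
      · exact Or.inl hev
      · right
        have : ∃ n, ¬ AvQ i γ z (pre s n) := by
          by_contra hcon
          push Not at hcon
          exact hev hcon
        obtain ⟨n, hn⟩ := this
        unfold AvQ at hn
        have h0 : endp (pre s n) i ≤ 0 := hGY s hs n
        by_cases h2 : z + endp (pre s n) = 0
        · right
          refine ⟨hs, n, ?_⟩
          show endp (pre s n) = 0 - z
          rw [← h2]; abel
        · left
          have h1 : ¬ ∀ k ≤ γ.length,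
              endp γ + vec (i, true) + z + endp (pre s n) ≠ endp (γ.take k) :=
            fun h1 => hn ⟨h0, h1, h2⟩
          push Not at h1
          obtain ⟨k, hk, hk'⟩ := h1
          refine Set.mem_biUnion (Finset.mem_coe.2 (Finset.mem_range.2 (Nat.lt_succ_of_le hk)))
            ⟨hs, n, ?_⟩
          show endp (pre s n) = v k - z
          simp only [hv]
          rw [← hk']; abel
    refine (measure_mono hsub).trans ((measure_union_le _ _).trans (add_le_add le_rfl ?_))
    exact (measure_union_le _ _).trans (add_le_add (measure_biUnion_finset_le _ _) le_rfl)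
  calc (B.card : ℝ≥0∞) * ν GY = ∑ z ∈ B, ν GY := by rw [Finset.sum_const, nsmul_eq_mul]
    _ ≤ ∑ z ∈ B, (ν (Ev (AvQ i γ z)) +
      (∑ k ∈ Finset.range (γ.length + 1), ν (GY ∩ {s | ∃ n, pos s n = v k - z}) +
        ν (GY ∩ {s | ∃ n, pos s n = 0 - z}))) := Finset.sum_le_sum hz
    _ = ∑ z ∈ B, ν (Ev (AvQ i γ z)) +
      (∑ k ∈ Finset.range (γ.length + 1), ∑ z ∈ B, ν (GY ∩ {s | ∃ n, pos s n = v k - z}) +
        ∑ z ∈ B, ν (GY ∩ {s | ∃ n, pos s n = 0 - z})) := by
        rw [Finset.sum_add_distrib, Finset.sum_add_distrib, Finset.sum_comm (s := B)]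
    _ ≤ _ := by
        refine add_le_add le_rfl (add_le_add (Finset.sum_le_sum fun k hk => ?_) ?_)
        · exact hg (v k) _ (hvi k (by have := Finset.mem_range.1 hk; omega))
        · exact hg 0 0 (by simp)

theorem hit_exists {i : Fin d} {c b : ℝ} (hc : 0 < c) {s : ℕ → Step d} (hs : s ∈ Up i c b)
    (L : ℕ) : ∃ n, Hit i ((L : ℤ) + 1) (pre s n) := by
  classical
  have hex : ∃ n, (L : ℤ) + 1 ≤ pos s n i := by
    obtain ⟨n, hn⟩ := exists_nat_gt (((L : ℝ) + 1 + b) / c)
    refine ⟨n, ?_⟩
    rw [div_lt_iff₀ hc] at hn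
    have h1 : c * n - b ≤ (pos s n i : ℝ) := hs n
    have : ((L : ℤ) + 1 : ℝ) ≤ (pos s n i : ℝ) := by push_cast; linarith
    exact_mod_cast this
  refine ⟨Nat.find hex, ?_, ?_⟩
  · have h1 := Nat.find_spec hex
    refine le_antisymm ?_ h1
    rcases h : Nat.find hex with _ | m
    · simp only [pre_zero, endp_nil, Pi.zero_apply]; positivity
    · have h2 := Nat.find_min hex (show m < Nat.find hex by omega)
      have h3 : endp (pre s (m + 1)) = pos s m + vec (s m) := pos_succ s m
      rw [h3, Pi.add_apply]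
      have h4 := vec_le_one (s m) i
      push Not at h2
      linarith
  · intro k hk
    rw [pre_length] at hk
    have h2 := Nat.find_min hex hk
    push Not at h2
    rw [pre_take s hk.le]
    exact h2

theorem hit_unique {i : Fin d} {L : ℤ} {s : ℕ → Step d} {m n : ℕ} (hm : Hit i L (pre s m))
    (hn : Hit i L (pre s n)) : m = n := by
  rcases lt_trichotomy m n with h | h | h
  · have := hn.2 m (by simpa using h)
    rw [pre_take s h.le, hm.1] at this
    exact absurd this (lt_irrefl _)
  · exact h
  · have := hm.2 n (by simpa using h)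
    rw [pre_take s h.le, hn.1] at this
    exact absurd this (lt_irrefl _)

/-- pointwise estimate -/
theorem coll_point {i : Fin d} {c b : ℝ} (hc : 0 < c) (hb : 0 ≤ b) (g : ℕ → ℝ≥0∞)
    {s : ℕ → Step d} (hs : s ∈ Up i c b) (N : ℕ) (T : ℕ → ℕ)
    (hT : ∀ L : ℕ, Hit i ((L : ℤ) + 1) (pre s (T L))) :
    ∑ L ∈ Finset.range N, (∑ k ∈ Finset.range (T L + 1),
      g ((L : ℤ) + 2 - pos s k i).toNat + g 0) ≤
      ENNReal.ofReal ((N + b) / c + 1 + N) * ∑' lam, g lam := by
  classical
  set M : ℕ := ⌊((N : ℝ) + b) / c⌋₊ with hM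
  have hTM : ∀ L < N, T L ≤ M := by
    intro L hL
    apply Nat.le_floor
    rw [le_div_iff₀ hc]
    have h1 : c * (T L : ℝ) - b ≤ (pos s (T L) i : ℝ) := hs (T L)
    have h2 : pos s (T L) i = (L : ℤ) + 1 := (hT L).1
    rw [h2] at h1
    have h3 : ((L : ℝ) + 1) ≤ N := by exact_mod_cast hL
    push_cast at h1
    linarith
  have hlev : ∀ L k, k ≤ T L → pos s k i ≤ (L : ℤ) + 1 := by
    intro L k hk
    rcases hk.lt_or_eq with h | h
    · have := (hT L).2 k (by simpa using h)
      rw [pre_take s hk] at this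
      exact this.le
    · rw [h]; exact (hT L).1.le
  have h1 : ∑ L ∈ Finset.range N, ∑ k ∈ Finset.range (T L + 1), g ((L : ℤ) + 2 - pos s k i).toNat ≤
      ∑ k ∈ Finset.range (M + 1), ∑' lam, g lam := by
    calc ∑ L ∈ Finset.range N, ∑ k ∈ Finset.range (T L + 1), g ((L : ℤ) + 2 - pos s k i).toNat
        ≤ ∑ L ∈ Finset.range N, ∑ k ∈ Finset.range (M + 1),
          (if k ≤ T L then g ((L : ℤ) + 2 - pos s k i).toNat else 0) := by
          refine Finset.sum_le_sum fun L hL => ?_
          have hle := hTM L (Finset.mem_range.1 hL)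
          rw [← Finset.sum_filter]
          refine Finset.sum_le_sum_of_subset ?_
          intro k hk
          rw [Finset.mem_range] at hk
          rw [Finset.mem_filter, Finset.mem_range]
          omega
      _ = ∑ k ∈ Finset.range (M + 1), ∑ L ∈ Finset.range N,
          (if k ≤ T L then g ((L : ℤ) + 2 - pos s k i).toNat else 0) := Finset.sum_comm
      _ ≤ ∑ k ∈ Finset.range (M + 1), ∑' lam, g lam := by
          refine Finset.sum_le_sum fun k _ => ?_
          rw [← Finset.sum_filter]
          have hinj : Set.InjOn (fun L : ℕ => ((L : ℤ) + 2 - pos s k i).toNat)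
              (((Finset.range N).filter (fun L => k ≤ T L) : Finset ℕ) : Set ℕ) := by
            intro a ha a' ha' haa
            have h1 := hlev a k (Finset.mem_filter.1 (Finset.mem_coe.1 ha)).2
            have h2 := hlev a' k (Finset.mem_filter.1 (Finset.mem_coe.1 ha')).2
            simp only at haa
            omega
          rw [← Finset.sum_image (f := g) hinj]
          exact ENNReal.sum_le_tsum _
  have h2 : g 0 ≤ ∑' lam, g lam := ENNReal.le_tsum 0
  have hMr : (M : ℝ) ≤ ((N : ℝ) + b) / c := Nat.floor_le (by positivity)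
  calc ∑ L ∈ Finset.range N, (∑ k ∈ Finset.range (T L + 1),
      g ((L : ℤ) + 2 - pos s k i).toNat + g 0)
      = ∑ L ∈ Finset.range N, ∑ k ∈ Finset.range (T L + 1), g ((L : ℤ) + 2 - pos s k i).toNat
        + N * g 0 := by
        rw [Finset.sum_add_distrib]; simp
    _ ≤ (M + 1 : ℕ) * (∑' lam, g lam) + N * (∑' lam, g lam) := by
        refine add_le_add (h1.trans ?_) (by gcongr)
        rw [Finset.sum_const, Finset.card_range, nsmul_eq_mul]
    _ = ((M + 1 + N : ℕ) : ℝ≥0∞) * ∑' lam, g lam := by push_cast; ring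
    _ ≤ _ := by
        gcongr
        rw [← ENNReal.ofReal_natCast]
        apply ENNReal.ofReal_le_ofReal
        push_cast
        linarith

open Classical in
/-- summation over the levels `1 ≤ L ≤ N` and over the paths -/
theorem coll_sum (ν : Measure (ℕ → Step d)) (i : Fin d) {c b : ℝ} (hc : 0 < c)
    (hb : 0 ≤ b) (g : ℕ → ℝ≥0∞) (F : List (Step d) → ℝ≥0∞) (K : ℝ≥0∞)
    (hF : ∀ (L : ℕ) (γ : List (Step d)), Hit i ((L : ℤ) + 1) γ →
      K ≤ F γ + (∑ k ∈ Finset.range (γ.length + 1), g ((L : ℤ) + 2 - endp (γ.take k) i).toNat + g 0))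
    (N : ℕ) :
    (N : ℝ≥0∞) * K * ν (Up i c b) ≤
      (∑ L ∈ Finset.range N, ∑' γ : List (Step d), if Hit i ((L : ℤ) + 1) γ then
        ν (cyl γ) * F γ else 0) +
      (ENNReal.ofReal ((N + b) / c + 1 + N)) * (∑' lam, g lam) * ν (Up i c b) := by
  set G : ℕ → List (Step d) → ℝ≥0∞ := fun L γ =>
    ∑ k ∈ Finset.range (γ.length + 1), g ((L : ℤ) + 2 - endp (γ.take k) i).toNat + g 0 with hG
  -- one level
  have hone : ∀ L : ℕ, K * ν (Up i c b) ≤
      (∑' γ : List (Step d), if Hit i ((L : ℤ) + 1) γ then ν (cyl γ) * F γ else 0) +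
      ∑' γ : List (Step d), (if Hit i ((L : ℤ) + 1) γ then G L γ else 0) * ν (cyl γ ∩ Up i c b) := by
    intro L
    have hcov : Up i c b ⊆ ⋃ γ : List (Step d), (if Hit i ((L : ℤ) + 1) γ then cyl γ ∩ Up i c b else ∅) := by
      intro s hs
      obtain ⟨n, hn⟩ := hit_exists hc hs L
      refine Set.mem_iUnion.2 ⟨pre s n, ?_⟩
      rw [if_pos hn]
      exact ⟨pre_mem_cyl s n, hs⟩
    calc K * ν (Up i c b) ≤ K * ∑' γ : List (Step d),
          ν (if Hit i ((L : ℤ) + 1) γ then cyl γ ∩ Up i c b else ∅) := by
          gcongr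
          exact (measure_mono hcov).trans (measure_iUnion_le _)
      _ = ∑' γ : List (Step d), K * ν (if Hit i ((L : ℤ) + 1) γ then cyl γ ∩ Up i c b else ∅) :=
          ENNReal.tsum_mul_left.symm
      _ ≤ ∑' γ : List (Step d), ((if Hit i ((L : ℤ) + 1) γ then ν (cyl γ) * F γ else 0) +
          (if Hit i ((L : ℤ) + 1) γ then G L γ else 0) * ν (cyl γ ∩ Up i c b)) := by
          refine ENNReal.tsum_le_tsum fun γ => ?_
          split_ifs with hγ
          · calc K * ν (cyl γ ∩ Up i c b) ≤ (F γ + G L γ) * ν (cyl γ ∩ Up i c b) := by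
                  gcongr
                  exact hF L γ hγ
              _ = F γ * ν (cyl γ ∩ Up i c b) + G L γ * ν (cyl γ ∩ Up i c b) := by ring
              _ ≤ ν (cyl γ) * F γ + G L γ * ν (cyl γ ∩ Up i c b) := by
                  refine add_le_add ?_ le_rfl
                  rw [mul_comm]
                  gcongr
                  exact Set.inter_subset_left
          · simp
      _ = _ := ENNReal.tsum_add
  -- sum of the levels
  have hsum : ∑ L ∈ Finset.range N, ∑' γ : List (Step d),
      (if Hit i ((L : ℤ) + 1) γ then G L γ else 0) * ν (cyl γ ∩ Up i c b) ≤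
      (ENNReal.ofReal ((N + b) / c + 1 + N)) * (∑' lam, g lam) * ν (Up i c b) := by
    have hUm : MeasurableSet (Up (d := d) i c b) := by
      have : Up i c b = Ev (fun m : List (Step d) => c * m.length - b ≤ (endp m i : ℝ)) := by
        ext s; simp only [Up, Ev, pos, pre_length]
      rw [this]; exact measurableSet_Ev _
    have hm : ∀ γ : List (Step d), MeasurableSet (cyl γ ∩ Up i c b) := fun γ =>
      (measurableSet_cyl γ).inter hUm
    calc ∑ L ∈ Finset.range N, ∑' γ : List (Step d),
        (if Hit i ((L : ℤ) + 1) γ then G L γ else 0) * ν (cyl γ ∩ Up i c b)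
        = ∑ L ∈ Finset.range N, ∑' γ : List (Step d), ∫⁻ s, (cyl γ ∩ Up i c b).indicator
          (fun _ => if Hit i ((L : ℤ) + 1) γ then G L γ else 0) s ∂ν := by
          refine Finset.sum_congr rfl fun L _ => tsum_congr fun γ => ?_
          rw [lintegral_indicator_const (hm γ)]
      _ = ∑ L ∈ Finset.range N, ∫⁻ s, ∑' γ : List (Step d), (cyl γ ∩ Up i c b).indicator
          (fun _ => if Hit i ((L : ℤ) + 1) γ then G L γ else 0) s ∂ν := by
          refine Finset.sum_congr rfl fun L _ => ?_
          rw [lintegral_tsum]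
          intro γ
          exact (measurable_const.indicator (hm γ)).aemeasurable
      _ = ∫⁻ s, ∑ L ∈ Finset.range N, ∑' γ : List (Step d), (cyl γ ∩ Up i c b).indicator
          (fun _ => if Hit i ((L : ℤ) + 1) γ then G L γ else 0) s ∂ν := by
          rw [lintegral_finsetSum]
          intro L _
          exact Measurable.tsum fun γ => measurable_const.indicator (hm γ)
      _ ≤ ∫⁻ s, (Up i c b).indicator (fun _ =>
          (ENNReal.ofReal ((N + b) / c + 1 + N)) * (∑' lam, g lam)) s ∂ν := by
          refine lintegral_mono fun s => ?_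
          by_cases hs : s ∈ Up i c b
          · rw [Set.indicator_of_mem hs]
            have hex := fun L => hit_exists hc hs L
            choose T hT using hex
            refine le_trans (Finset.sum_le_sum fun L _ => ?_) (coll_point hc hb g hs N T hT)
            rw [tsum_eq_single (pre s (T L))]
            · refine (Set.indicator_le_self' (fun _ _ => zero_le) s).trans ?_
              rw [if_pos (hT L)]
              simp only [hG, pre_length]
              refine add_le_add (Finset.sum_le_sum fun k hk => ?_) le_rfl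
              have hk' : k ≤ T L := by have := Finset.mem_range.1 hk; omega
              rw [pre_take s hk']
              exact le_rfl
            · intro γ hγ
              by_cases hmem : s ∈ cyl γ ∩ Up i c b
              · rw [Set.indicator_of_mem hmem, if_neg]
                intro hhit
                have h1 : pre s γ.length = γ := hmem.1
                rw [← h1] at hhit
                have := hit_unique hhit (hT L)
                exact hγ (by rw [← this, h1])
              · rw [Set.indicator_of_notMem hmem]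
          · rw [Set.indicator_of_notMem hs]
            apply le_of_eq
            refine Finset.sum_eq_zero fun L _ => ?_
            rw [ENNReal.tsum_eq_zero]
            intro γ
            rw [Set.indicator_of_notMem]
            exact fun h => hs h.2
      _ = _ := by rw [lintegral_indicator_const hUm]
  calc (N : ℝ≥0∞) * K * ν (Up i c b) = ∑ L ∈ Finset.range N, K * ν (Up i c b) := by
        rw [Finset.sum_const, Finset.card_range, nsmul_eq_mul, mul_assoc]
    _ ≤ ∑ L ∈ Finset.range N, ((∑' γ : List (Step d), if Hit i ((L : ℤ) + 1) γ then ν (cyl γ) * F γ else 0) +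
      ∑' γ : List (Step d), (if Hit i ((L : ℤ) + 1) γ then G L γ else 0) * ν (cyl γ ∩ Up i c b)) :=
        Finset.sum_le_sum fun L _ => hone L
    _ = _ := Finset.sum_add_distrib
    _ ≤ _ := add_le_add le_rfl hsum

end Vale.Agent.Lib.P147
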