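import Mathlib

/-!
P147 (random walk in random environment), two opposite nonzero speeds are impossible for d ≥ 4.
Common definitions.  A walk is coded by its sequence of steps `s : ℕ → Step d`.
-/

open MeasureTheory
open scoped ENNReal

namespace Vale.Agent.Lib.P147

variable {d : ℕ}

/-- unit steps of `ℤ^d`: a coordinate and a sign (`true` is `+`). -/
abbrev Step (d : ℕ) := Fin d × Bool

/-- the vector of a step -/
def vec (e : Step d) : Fin d → ℤ := Pi.single e.1 (if e.2 then 1 else -1)

/-- end point of a finite path (list of steps) started at `0` -/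
def endp (l : List (Step d)) : Fin d → ℤ := (l.map vec).sum

/-- the first `n` steps of `s` -/
def pre (s : ℕ → Step d) (n : ℕ) : List (Step d) := (List.range n).map s

/-- position at time `n` -/
def pos (s : ℕ → Step d) (n : ℕ) : Fin d → ℤ := endp (pre s n)

/-- step sequences which begin with the finite path `l` -/
def cyl (l : List (Step d)) : Set (ℕ → Step d) := {s | pre s l.length = l}

/-- departure sites of a finite path started at `0` -/
def Sites (l : List (Step d)) : Set (Fin d → ℤ) := {x | ∃ k < l.length, endp (l.take k) = x}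

/-- the properties of the annealed law (of the step sequence) which are used -/
structure Law (ν : Measure (ℕ → Step d)) : Prop where
  prob : ν Set.univ = 1
  mul : ∀ l m : List (Step d), (∀ x ∈ Sites l, ∀ y ∈ Sites m, x ≠ endp l + y) →
    ν (cyl (l ++ m)) = ν (cyl l) * ν (cyl m)
  le : ∀ l m : List (Step d), ν (cyl (l ++ m)) ≤ ν (cyl m)
  pos : ∀ e : Step d, 0 < ν (cyl [e])

/-- closed event: all finite beginnings satisfy `Q` -/
def Ev (Q : List (Step d) → Prop) : Set (ℕ → Step d) := {s | ∀ n, Q (pre s n)}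

/-- shifted sequence -/
def shift (n : ℕ) (s : ℕ → Step d) : ℕ → Step d := fun k => s (k + n)

/-- `γ` ends at its first visit to level `L` (coordinate `i`), coming from below -/
def Hit (i : Fin d) (L : ℤ) (γ : List (Step d)) : Prop :=
  endp γ i = L ∧ ∀ k < γ.length, endp (γ.take k) i < L

/-- `m` (started at `endp γ + e_i + z`) never goes above its starting level, and its end point
is not a site of `γ` (with its tip) and not `endp γ + e_i` -/
def AvQ (i : Fin d) (γ : List (Step d)) (z : Fin d → ℤ) (m : List (Step d)) : Prop :=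
  endp m i ≤ 0 ∧ (∀ k ≤ γ.length, endp γ + vec (i, true) + z + endp m ≠ endp (γ.take k)) ∧
    z + endp m ≠ 0

/-- linear escape upwards -/
def Up (i : Fin d) (c b : ℝ) : Set (ℕ → Step d) := {s | ∀ n : ℕ, c * n - b ≤ (pos s n i : ℝ)}

/-- linear escape downwards, never above the starting level -/
def Down (i : Fin d) (c b : ℝ) : Set (ℕ → Step d) :=
  {s | ∀ n : ℕ, pos s n i ≤ 0 ∧ (pos s n i : ℝ) ≤ b - c * n}

/-- `μ` is a mark of type `j`: at the first visit of level `-μ` the walk makes a step `± e_j`, then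
a step `- e_i`, and then stays strictly below level `-μ` for ever -/
def Mark (i j : Fin d) (s : ℕ → Step d) (μ : ℕ) : Prop :=
  ∃ t, pos s t i = -(μ : ℤ) ∧ (∀ k < t, -(μ : ℤ) < pos s k i) ∧ (s t).1 = j ∧
    s (t + 1) = (i, false) ∧ ∀ k, t + 2 ≤ k → pos s k i < -(μ : ℤ)

/-- number of marks of type `j` at levels `< Λ` -/
noncomputable def nMark (i j : Fin d) (s : ℕ → Step d) (Λ : ℕ) : ℕ :=
  {μ : ℕ | μ < Λ ∧ Mark i j s μ}.ncard

/-- finite horizon marks, for a finite path `l` -/
def MarkH (i j : Fin d) (l : List (Step d)) (μ : ℕ) : Prop :=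
  ∃ t, t + 2 ≤ l.length ∧ endp (l.take t) i = -(μ : ℤ) ∧
    (∀ k < t, -(μ : ℤ) < endp (l.take k) i) ∧ (∃ σ : Bool, l[t]? = some (j, σ)) ∧
    l[t + 1]? = some (i, false) ∧ ∀ k, t + 2 ≤ k → k ≤ l.length → endp (l.take k) i < -(μ : ℤ)

noncomputable def nMarkH (i j : Fin d) (l : List (Step d)) (Λ : ℕ) : ℕ :=
  {μ : ℕ | μ < Λ ∧ MarkH i j l μ}.ncard

/-- finite horizon version of `Down` -/
def DownH (i : Fin d) (c b : ℝ) (l : List (Step d)) : Prop :=
  ∀ n ≤ l.length, endp (l.take n) i ≤ 0 ∧ (endp (l.take n) i : ℝ) ≤ b - c * n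

/-- good downward walks: `Down` and enough marks of each of the three types -/
def GoodY (i : Fin d) (j : Fin 3 → Fin d) (c b : ℝ) (l₀ : ℕ) : Set (ℕ → Step d) :=
  {s | s ∈ Down i c b ∧ ∀ l, l₀ ≤ l → ∀ a, 8 ^ l ≤ nMark i (j a) s (16 ^ l)}

/-- the three-dimensional lateral box -/
noncomputable def Box (j : Fin 3 → Fin d) (R : ℕ) : Finset (Fin d → ℤ) :=
  (Fintype.piFinset (fun _ : Fin 3 => Finset.range R)).image
    (fun z => ∑ a, Pi.single (j a) ((z a : ℕ) : ℤ))

end Vale.Agent.Lib.P147
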