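import Vale.Agent.Lib.P147.Defs

/-! P147: basic facts on cylinders, and the extension of the product formula to events. -/

open MeasureTheory ProbabilityTheory Filter
open scoped ENNReal

namespace Vale.Agent.Lib.P147

variable {d : ℕ}

@[simp] theorem pre_length (s : ℕ → Step d) (n : ℕ) : (pre s n).length = n := by simp [pre]

@[simp] theorem pre_zero (s : ℕ → Step d) : pre s 0 = [] := by simp [pre]

theorem pre_succ (s : ℕ → Step d) (n : ℕ) : pre s (n + 1) = pre s n ++ [s n] := by
  simp [pre, List.range_succ]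

theorem pre_take (s : ℕ → Step d) {k n : ℕ} (h : k ≤ n) : (pre s n).take k = pre s k := by
  unfold pre
  rw [← List.map_take, List.take_range, min_eq_left h]

theorem pre_getElem (s : ℕ → Step d) {k n : ℕ} (h : k < (pre s n).length) : (pre s n)[k] = s k := by
  simp [pre]

theorem pre_add (s : ℕ → Step d) (m n : ℕ) : pre s (m + n) = pre s m ++ pre (shift m s) n := by
  induction n with
  | zero => simp
  | succ n ih => rw [← add_assoc, pre_succ, ih, pre_succ, List.append_assoc]; simp [shift, add_comm]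

theorem endp_append (l m : List (Step d)) : endp (l ++ m) = endp l + endp m := by
  simp [endp]

@[simp] theorem endp_nil : endp ([] : List (Step d)) = 0 := by simp [endp]

@[simp] theorem endp_singleton (e : Step d) : endp [e] = vec e := by simp [endp]

@[simp] theorem pos_zero (s : ℕ → Step d) : pos s 0 = 0 := by simp [pos]

theorem pos_succ (s : ℕ → Step d) (n : ℕ) : pos s (n + 1) = pos s n + vec (s n) := by
  simp [pos, pre_succ, endp_append]

theorem pos_add (s : ℕ → Step d) (m n : ℕ) : pos s (m + n) = pos s m + pos (shift m s) n := by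
  simp [pos, pre_add, endp_append]

theorem mem_cyl_iff (s : ℕ → Step d) (l : List (Step d)) : s ∈ cyl l ↔ pre s l.length = l := Iff.rfl

theorem pre_mem_cyl (s : ℕ → Step d) (n : ℕ) : s ∈ cyl (pre s n) := by simp [cyl]

theorem mem_cyl_pre {s t : ℕ → Step d} {n : ℕ} : s ∈ cyl (pre t n) ↔ pre s n = pre t n := by
  simp [cyl]

/-- beginnings of `s` when `s` is in the cylinder of `l` -/
theorem pre_of_mem_cyl {s : ℕ → Step d} {l : List (Step d)} (h : s ∈ cyl l) {k : ℕ}
    (hk : k ≤ l.length) : pre s k = l.take k := by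
  rw [← pre_take s hk, (mem_cyl_iff s l).1 h]

theorem pos_of_mem_cyl {s : ℕ → Step d} {l : List (Step d)} (h : s ∈ cyl l) {k : ℕ}
    (hk : k ≤ l.length) : pos s k = endp (l.take k) := by
  rw [pos, pre_of_mem_cyl h hk]

theorem pos_of_mem_cyl_length {s : ℕ → Step d} {l : List (Step d)} (h : s ∈ cyl l) :
    pos s l.length = endp l := by
  rw [pos_of_mem_cyl h le_rfl, List.take_length]

theorem mem_cyl_append {s : ℕ → Step d} {l m : List (Step d)} :
    s ∈ cyl (l ++ m) ↔ s ∈ cyl l ∧ shift l.length s ∈ cyl m := by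
  rw [mem_cyl_iff, mem_cyl_iff, mem_cyl_iff, List.length_append, pre_add]
  constructor
  · intro h
    have := List.append_inj h (by simp)
    exact this
  · rintro ⟨h1, h2⟩
    rw [h1, h2]

theorem measurableSet_cyl (l : List (Step d)) : MeasurableSet (cyl l) := by
  induction l using List.reverseRecOn with
  | nil =>
    have : (cyl ([] : List (Step d))) = Set.univ := by ext s; simp [cyl]
    rw [this]; exact MeasurableSet.univ
  | append_singleton l e ih =>
    have : cyl (l ++ [e]) = cyl l ∩ (fun s : ℕ → Step d => s l.length) ⁻¹' {e} := by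
      ext s
      rw [mem_cyl_append, Set.mem_inter_iff]
      simp [cyl, pre, shift]
    rw [this]
    exact ih.inter ((measurable_pi_apply _) (measurableSet_singleton e))

theorem cyl_disjoint {l m : List (Step d)} (hlen : l.length = m.length) (hne : l ≠ m) :
    Disjoint (cyl l) (cyl m) := by
  rw [Set.disjoint_left]
  intro s h1 h2
  rw [mem_cyl_iff] at h1 h2
  exact hne (h1.symm.trans (hlen ▸ h2))

theorem measurable_shift (n : ℕ) : Measurable (shift n : (ℕ → Step d) → _) :=
  measurable_pi_lambda _ fun k => measurable_pi_apply (k + n)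

/-- the event given by a set of finite paths of the same length -/
def EvS (S : Set (List (Step d))) : Set (ℕ → Step d) := ⋃ m ∈ S, cyl m

theorem measurableSet_EvS (S : Set (List (Step d))) : MeasurableSet (EvS S) :=
  MeasurableSet.biUnion (Set.to_countable S) fun m _ => measurableSet_cyl m

theorem measure_EvS (ν : Measure (ℕ → Step d)) {n : ℕ} {S : Set (List (Step d))}
    (hS : ∀ m ∈ S, m.length = n) : ν (EvS S) = ∑' m : S, ν (cyl (m : List (Step d))) := by
  rw [EvS, measure_biUnion (Set.to_countable S) _ fun m _ => measurableSet_cyl m]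
  intro a ha b hb hab
  exact cyl_disjoint ((hS a ha).trans (hS b hb).symm) hab

theorem measure_EvS_shift (ν : Measure (ℕ → Step d)) (l : List (Step d)) {n : ℕ}
    {S : Set (List (Step d))}
    (hS : ∀ m ∈ S, m.length = n) :
    ν (cyl l ∩ shift l.length ⁻¹' (EvS S)) = ∑' m : S, ν (cyl (l ++ (m : List (Step d)))) := by
  have : cyl l ∩ shift l.length ⁻¹' (EvS S) = ⋃ m ∈ S, cyl (l ++ m) := by
    ext s
    simp only [EvS, Set.mem_inter_iff, Set.mem_preimage, Set.mem_iUnion, mem_cyl_append]
    tauto
  rw [this, measure_biUnion (Set.to_countable S) _ fun m _ => measurableSet_cyl _]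
  intro a ha b hb hab
  exact cyl_disjoint (by rw [List.length_append, List.length_append, hS a ha, hS b hb])
    (fun h => hab (List.append_cancel_left h))

/-- finite time version of `Ev Q` -/
def EvN (Q : List (Step d) → Prop) (n : ℕ) : Set (ℕ → Step d) := {s | ∀ k ≤ n, Q (pre s k)}

theorem EvN_eq (Q : List (Step d) → Prop) (n : ℕ) :
    EvN Q n = EvS {m : List (Step d) | m.length = n ∧ ∀ k ≤ n, Q (m.take k)} := by
  ext s
  simp only [EvN, EvS, Set.mem_iUnion]
  constructor
  · intro h
    refine ⟨pre s n, ⟨pre_length s n, fun k hk => ?_⟩, pre_mem_cyl s n⟩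
    rw [pre_take s hk]
    exact h k hk
  · rintro ⟨m, ⟨hm, hQ⟩, hs⟩
    intro k hk
    rw [pre_of_mem_cyl hs (hm ▸ hk)]
    exact hQ k hk

theorem measurableSet_EvN (Q : List (Step d) → Prop) (n : ℕ) : MeasurableSet (EvN Q n) := by
  rw [EvN_eq]; exact measurableSet_EvS _

theorem EvN_antitone (Q : List (Step d) → Prop) : Antitone (EvN Q) := by
  intro a b hab s hs k hk
  exact hs k (hk.trans hab)

theorem Ev_eq_iInter (Q : List (Step d) → Prop) : Ev Q = ⋂ n, EvN Q n := by
  ext s
  simp only [Ev, EvN, Set.mem_iInter]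
  constructor
  · intro h n k _
    exact h k
  · intro h n
    exact h n n le_rfl

theorem measurableSet_Ev (Q : List (Step d) → Prop) : MeasurableSet (Ev Q) := by
  rw [Ev_eq_iInter]
  exact MeasurableSet.iInter fun n => measurableSet_EvN Q n

theorem Law.ne_top {ν : Measure (ℕ → Step d)} (h : Law ν) (S : Set (ℕ → Step d)) : ν S ≠ ⊤ :=
  ne_top_of_le_ne_top (by rw [h.prob]; exact ENNReal.one_ne_top) (measure_mono (Set.subset_univ S))

theorem Law.isProb {ν : Measure (ℕ → Step d)} (h : Law ν) : IsProbabilityMeasure ν := ⟨h.prob⟩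

theorem tendsto_EvN {ν : Measure (ℕ → Step d)} (h : Law ν) (Q : List (Step d) → Prop) :
    Tendsto (fun n => ν (EvN Q n)) atTop (nhds (ν (Ev Q))) := by
  rw [Ev_eq_iInter]
  exact tendsto_measure_iInter_atTop (fun n => (measurableSet_EvN Q n).nullMeasurableSet)
    (EvN_antitone Q) ⟨0, h.ne_top _⟩

theorem tendsto_EvN_shift {ν : Measure (ℕ → Step d)} (h : Law ν) (l : List (Step d))
    (Q : List (Step d) → Prop) :
    Tendsto (fun n => ν (cyl l ∩ shift l.length ⁻¹' EvN Q n)) atTop
      (nhds (ν (cyl l ∩ shift l.length ⁻¹' Ev Q))) := by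
  have : cyl l ∩ shift l.length ⁻¹' Ev Q = ⋂ n, (cyl l ∩ shift l.length ⁻¹' EvN Q n) := by
    rw [Ev_eq_iInter, Set.preimage_iInter, Set.inter_iInter]
  rw [this]
  refine tendsto_measure_iInter_atTop (fun n => ?_) ?_ ⟨0, h.ne_top _⟩
  · exact ((measurableSet_cyl l).inter (measurable_shift _ (measurableSet_EvN Q n))).nullMeasurableSet
  · intro a b hab
    exact Set.inter_subset_inter_right _ (Set.preimage_mono (EvN_antitone Q hab))

theorem ext_le {ν : Measure (ℕ → Step d)} (h : Law ν) (l : List (Step d))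
    (Q : List (Step d) → Prop) :
    ν (cyl l ∩ shift l.length ⁻¹' (Ev Q)) ≤ ν (Ev Q) := by
  refine le_of_tendsto_of_tendsto' (tendsto_EvN_shift h l Q) (tendsto_EvN h Q) fun n => ?_
  rw [EvN_eq, measure_EvS_shift ν l (n := n) (fun m hm => hm.1),
    measure_EvS ν (n := n) (fun m hm => hm.1)]
  exact ENNReal.tsum_le_tsum fun m => h.le l m

theorem ext_mul_Ev {ν : Measure (ℕ → Step d)} (h : Law ν) (l : List (Step d))
    (Q : List (Step d) → Prop)
    (hQ : ∀ m, (∀ k ≤ m.length, Q (m.take k)) → ∀ x ∈ Sites l, ∀ y ∈ Sites m, x ≠ endp l + y) :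
    ν (cyl l ∩ shift l.length ⁻¹' (Ev Q)) = ν (cyl l) * ν (Ev Q) := by
  have h1 := tendsto_EvN_shift h l Q
  have h2 := ENNReal.Tendsto.const_mul (a := ν (cyl l)) (tendsto_EvN h Q) (Or.inr (h.ne_top _))
  refine tendsto_nhds_unique h1 (h2.congr fun n => ?_)
  rw [EvN_eq, measure_EvS_shift ν l (n := n) (fun m hm => hm.1),
    measure_EvS ν (n := n) (fun m hm => hm.1), ← ENNReal.tsum_mul_left]
  refine tsum_congr fun m => ?_
  refine (h.mul l m (hQ m fun k hk => ?_)).symm
  exact m.2.2 k (m.2.1 ▸ hk)

theorem cyl_inter_Ev (m : List (Step d)) (Q : List (Step d) → Prop) :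
    cyl m ∩ Ev Q = Ev (fun m' => Q m' ∧ m'.take m.length = m.take m'.length) := by
  ext s
  simp only [Set.mem_inter_iff, mem_cyl_iff]
  constructor
  · rintro ⟨h1, h2⟩ n
    refine ⟨h2 n, ?_⟩
    rw [pre_length]
    rcases le_total n m.length with hn | hn
    · rw [List.take_of_length_le (by simpa using hn), ← pre_take s hn, h1]
    · rw [pre_take s hn, h1, List.take_of_length_le hn]
  · intro h
    refine ⟨?_, fun n => (h n).1⟩
    have := (h m.length).2
    rw [pre_length, List.take_length, pre_take s le_rfl] at this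
    exact this

theorem isPiSystem_cyl : IsPiSystem (Set.range (cyl : List (Step d) → Set (ℕ → Step d))) := by
  have key : ∀ l m : List (Step d), l.length ≤ m.length → (cyl l ∩ cyl m).Nonempty →
      cyl l ∩ cyl m = cyl m := by
    rintro l m hlm ⟨s, hs1, hs2⟩
    apply Set.inter_eq_right.2
    intro t ht
    rw [mem_cyl_iff, pre_of_mem_cyl ht hlm, ← pre_of_mem_cyl hs2 hlm]
    exact hs1
  rintro _ ⟨l, rfl⟩ _ ⟨m, rfl⟩ hne
  rcases le_total l.length m.length with hlm | hlm
  · rw [key l m hlm hne]; exact ⟨m, rfl⟩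
  · rw [Set.inter_comm] at hne ⊢
    rw [key m l hlm hne]; exact ⟨l, rfl⟩

theorem generate_cyl : (inferInstance : MeasurableSpace (ℕ → Step d)) =
    MeasurableSpace.generateFrom (Set.range (cyl : List (Step d) → Set (ℕ → Step d))) := by
  apply le_antisymm
  · show MeasurableSpace.pi ≤ _
    unfold MeasurableSpace.pi
    refine iSup_le fun k => ?_
    rintro _ ⟨T, -, rfl⟩
    have : (fun s : ℕ → Step d => s k) ⁻¹' T = ⋃ l ∈ {l : List (Step d) | l.length = k + 1 ∧
        ∃ e ∈ T, l[k]? = some e}, cyl l := by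
      ext s
      simp only [Set.mem_preimage, Set.mem_iUnion]
      constructor
      · intro hs
        refine ⟨pre s (k + 1), ⟨pre_length _ _, s k, hs, ?_⟩, pre_mem_cyl s _⟩
        rw [List.getElem?_eq_getElem (by simp), pre_getElem]
      · rintro ⟨l, ⟨hl, e, he, hle⟩, hs⟩
        rw [mem_cyl_iff] at hs
        rw [← hs, List.getElem?_eq_getElem (by simp [hl]), pre_getElem] at hle
        rw [Option.some_injective _ hle]
        exact he
    rw [this]
    exact MeasurableSet.biUnion (Set.to_countable _) fun l _ =>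
      MeasurableSpace.measurableSet_generateFrom ⟨l, rfl⟩
  · refine MeasurableSpace.generateFrom_le ?_
    rintro _ ⟨l, rfl⟩
    exact measurableSet_cyl l

/-- disjoint departure sites: product formula for every event -/
theorem ext_mul {ν : Measure (ℕ → Step d)} (h : Law ν) (l : List (Step d))
    (Q : List (Step d) → Prop)
    (hQ : ∀ m, (∀ k ≤ m.length, Q (m.take k)) → ∀ x ∈ Sites l, ∀ y ∈ Sites m, x ≠ endp l + y)
    (A : Set (ℕ → Step d)) (hA : MeasurableSet A) :
    ν (cyl l ∩ shift l.length ⁻¹' (A ∩ Ev Q)) = ν (cyl l) * ν (A ∩ Ev Q) := by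
  have := h.isProb
  set ν1 : Measure (ℕ → Step d) :=
    (ν.restrict (cyl l ∩ shift l.length ⁻¹' (Ev Q))).map (shift l.length) with hν1
  set ν2 : Measure (ℕ → Step d) := ν (cyl l) • ν.restrict (Ev Q) with hν2
  have e1 : ∀ B, MeasurableSet B → ν1 B = ν (cyl l ∩ shift l.length ⁻¹' (B ∩ Ev Q)) := by
    intro B hB
    rw [hν1, Measure.map_apply (measurable_shift _) hB,
      Measure.restrict_apply (measurable_shift _ hB)]
    congr 1
    ext s
    simp only [Set.mem_inter_iff, Set.mem_preimage]
    tauto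
  have e2 : ∀ B, MeasurableSet B → ν2 B = ν (cyl l) * ν (B ∩ Ev Q) := by
    intro B hB
    rw [hν2, Measure.smul_apply, Measure.restrict_apply hB, smul_eq_mul]
  have : IsFiniteMeasure ν1 := by
    rw [hν1]; infer_instance
  have hcyl : ∀ m : List (Step d), ν1 (cyl m) = ν2 (cyl m) := by
    intro m
    rw [e1 _ (measurableSet_cyl m), e2 _ (measurableSet_cyl m), cyl_inter_Ev]
    refine ext_mul_Ev h l _ fun m' hm' => hQ m' fun k hk => (hm' k hk).1
  have heq : ν1 = ν2 := by
    refine ext_of_generate_finite _ generate_cyl isPiSystem_cyl ?_ ?_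
    · rintro _ ⟨m, rfl⟩
      exact hcyl m
    · have : (Set.univ : Set (ℕ → Step d)) = cyl [] := by ext s; simp [cyl]
      rw [this]; exact hcyl []
  rw [← e1 A hA, ← e2 A hA, heq]

end Vale.Agent.Lib.P147
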