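import Vale.Agent.Lib.P147.Defs

/-! P147, module MODEL: the annealed law of a random walk in an iid random environment is a `Law`. -/

open MeasureTheory ProbabilityTheory Filter
open scoped ENNReal

namespace Vale.Agent.Lib.P147

variable {d : ℕ}

/-- On the probability space `(Ω, P)`, `env` is an iid environment whose rows have law `μ`, and
given the environment `X` is the Markov chain started at `0` with transition vectors `env x`. -/
structure IsRWRE {Ω : Type*} [MeasurableSpace Ω] (P : Measure Ω) (μ : Measure (Step d → ℝ))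
    (env : (Fin d → ℤ) → Ω → Step d → ℝ) (X : ℕ → Ω → Fin d → ℤ) : Prop where
  prob : IsProbabilityMeasure P
  env_meas : ∀ x, Measurable (env x)
  env_law : ∀ x, P.map (env x) = μ
  env_indep : iIndepFun env P
  walk_meas : ∀ n, Measurable (X n)
  start : ∀ᵐ ω ∂P, X 0 ω = 0
  markov : ∀ (n : ℕ) (x : ℕ → Fin d → ℤ), x 0 = 0 →
    ∀ B : Set ((Fin d → ℤ) → Step d → ℝ), MeasurableSet B →
    P {ω | (fun y => env y ω) ∈ B ∧ ∀ k ≤ n, X k ω = x k} =
      ∫⁻ ω in {ω | (fun y => env y ω) ∈ B}, ∏ k ∈ Finset.range n,
        (∑ e : Step d, if x k + vec e = x (k + 1) then ENNReal.ofReal (env (x k) ω e) else 0) ∂P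

/-- weight of a path started at `x` in the environment `p` -/
noncomputable def mwt (p : (Fin d → ℤ) → Step d → ℝ) : (Fin d → ℤ) → List (Step d) → ℝ≥0∞
  | _, [] => 1
  | x, e :: l => ENNReal.ofReal (p x e) * mwt p (x + vec e) l

theorem mwt_append (p : (Fin d → ℤ) → Step d → ℝ) (x : Fin d → ℤ) (l m : List (Step d)) :
    mwt p x (l ++ m) = mwt p x l * mwt p (x + endp l) m := by
  induction l generalizing x with
  | nil => simp [mwt, endp]
  | cons e l ih =>
    simp only [List.cons_append, mwt]
    rw [ih]
    have : x + vec e + endp l = x + endp (e :: l) := by simp [endp, add_assoc]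
    rw [this, mul_assoc]

theorem mwt_shift (p : (Fin d → ℤ) → Step d → ℝ) (y x : Fin d → ℤ) (l : List (Step d)) :
    mwt (fun z => p (y + z)) x l = mwt p (y + x) l := by
  induction l generalizing x with
  | nil => rfl
  | cons e l ih => simp only [mwt]; rw [ih, add_assoc]

theorem mwt_congr (p q : (Fin d → ℤ) → Step d → ℝ) (x : Fin d → ℤ) (l : List (Step d))
    (h : ∀ k < l.length, p (x + endp (l.take k)) = q (x + endp (l.take k))) :
    mwt p x l = mwt q x l := by
  induction l generalizing x with
  | nil => rfl
  | cons e l ih =>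
    simp only [mwt]
    have h0 : p x = q x := by
      have := h 0 (by simp)
      simpa [endp] using this
    rw [ih, h0]
    intro k hk
    have := h (k + 1) (by simpa using hk)
    simpa [endp, add_assoc] using this

theorem mwt_le_one (p : (Fin d → ℤ) → Step d → ℝ) (hp : ∀ x e, p x e ≤ 1) (x : Fin d → ℤ)
    (l : List (Step d)) : mwt p x l ≤ 1 := by
  induction l generalizing x with
  | nil => exact le_rfl
  | cons e l ih =>
    simp only [mwt]
    have h1 : ENNReal.ofReal (p x e) ≤ 1 := by
      simpa using ENNReal.ofReal_le_ofReal (hp x e)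
    calc _ ≤ (1:ℝ≥0∞) * 1 := mul_le_mul' h1 (ih _)
      _ = 1 := one_mul 1

theorem measurable_mwt (x : Fin d → ℤ) (l : List (Step d)) :
    Measurable (fun p : (Fin d → ℤ) → Step d → ℝ => mwt p x l) := by
  induction l generalizing x with
  | nil => exact measurable_const
  | cons e l ih =>
    simp only [mwt]
    exact (ENNReal.measurable_ofReal.comp
      ((measurable_pi_apply e).comp (measurable_pi_apply x))).mul (ih _)

theorem model_vec_inj {e f : Step d} (h : vec e = vec f) : e = f := by
  obtain ⟨a, s⟩ := e
  obtain ⟨b, t⟩ := f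
  unfold vec at h
  have h1 := congrFun h a
  simp only [Pi.single_eq_same] at h1
  by_cases hab : a = b
  · subst hab
    simp only [Pi.single_eq_same] at h1
    cases s <;> cases t <;> simp_all
  · rw [Pi.single_eq_of_ne hab] at h1
    cases s <;> simp at h1

theorem model_prod (p : (Fin d → ℤ) → Step d → ℝ) (y : Fin d → ℤ) (l : List (Step d)) :
    ∏ k ∈ Finset.range l.length, (∑ e : Step d,
      if y + endp (l.take k) + vec e = y + endp (l.take (k + 1)) then
        ENNReal.ofReal (p (y + endp (l.take k)) e) else 0) = mwt p y l := by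
  induction l generalizing y with
  | nil => simp [mwt]
  | cons e l ih =>
    rw [List.length_cons, Finset.prod_range_succ']
    simp only [mwt]
    rw [mul_comm]
    congr 1
    · rw [Finset.sum_eq_single e]
      · simp [endp]
      · intro f _ hf
        rw [if_neg]
        intro h
        simp only [List.take_zero, List.take_succ_cons, endp, List.map_nil, List.sum_nil, add_zero,
          List.map_cons, List.sum_cons, zero_add, add_right_inj] at h
        exact hf (model_vec_inj h)
      · intro h; exact absurd (Finset.mem_univ e) h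
    · rw [← ih (y + vec e)]
      refine Finset.prod_congr rfl fun k _ => Finset.sum_congr rfl fun f _ => ?_
      have h1 : y + endp ((e :: l).take (k + 1)) = y + vec e + endp (l.take k) := by
        simp [endp, add_assoc]
      have h2 : y + endp ((e :: l).take (k + 1 + 1)) = y + vec e + endp (l.take (k + 1)) := by
        simp [endp, add_assoc]
      rw [h1, h2]

theorem model_pre_succ (s : ℕ → Step d) (n : ℕ) : pre s (n + 1) = pre s n ++ [s n] := by
  unfold pre
  rw [List.range_succ, List.map_append]; rfl

theorem model_endp_append (l m : List (Step d)) : endp (l ++ m) = endp l + endp m := by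
  simp [endp]

theorem model_pos_succ (s : ℕ → Step d) (n : ℕ) : pos s (n + 1) = pos s n + vec (s n) := by
  unfold pos
  rw [model_pre_succ, model_endp_append]
  simp [endp]

theorem model_cyl_iff (s : ℕ → Step d) (l : List (Step d)) :
    s ∈ cyl l ↔ ∀ k ≤ l.length, pos s k = endp (l.take k) := by
  constructor
  · intro h k hk
    have h1 : pre s l.length = l := h
    have h2 : pre s k = l.take k := by
      conv_rhs => rw [← h1]
      unfold pre
      rw [← List.map_take, List.take_range, min_eq_left hk]
    unfold pos; rw [h2]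
  · intro h
    have key : ∀ k ≤ l.length, pre s k = l.take k := by
      intro k
      induction k with
      | zero => intro _; simp [pre]
      | succ k ih =>
        intro hk
        have hk' : k < l.length := hk
        have h1 := ih hk'.le
        have h2 := h (k + 1) hk
        rw [model_pos_succ, h k hk'.le, ← List.take_append_getElem hk', model_endp_append] at h2
        have h3 : s k = l[k] := by
          apply model_vec_inj
          have := add_left_cancel h2
          rw [this]; simp [endp]
        rw [model_pre_succ, h1, h3, List.take_append_getElem hk']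
    have := key l.length le_rfl
    rwa [List.take_length] at this

theorem model_measurable_pos (n : ℕ) : Measurable (fun s : ℕ → Step d => pos s n) := by
  induction n with
  | zero =>
    have : (fun s : ℕ → Step d => pos s 0) = fun _ => 0 := by
      funext s; simp [pos, pre, endp]
    rw [this]; exact measurable_const
  | succ n ih =>
    have : (fun s : ℕ → Step d => pos s (n + 1)) = fun s => pos s n + vec (s n) := by
      funext s; exact model_pos_succ s n
    rw [this]
    exact (Measurable.of_discrete (f := fun q : (Fin d → ℤ) × Step d => q.1 + vec q.2)).comp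
      (ih.prodMk (measurable_pi_apply n))

theorem model_measurableSet_cyl (l : List (Step d)) : MeasurableSet (cyl l) := by
  have : cyl l = {s | ∀ k ≤ l.length, pos s k = endp (l.take k)} := by
    ext s; exact model_cyl_iff s l
  rw [this, Set.ofPred_forall]
  refine MeasurableSet.iInter fun k => ?_
  rw [Set.ofPred_forall]
  refine MeasurableSet.iInter fun _ => ?_
  exact (model_measurable_pos k) (MeasurableSet.singleton (endp (l.take k)))

open Classical in
/-- the step from `x` to `y` -/
noncomputable def mstp [Nonempty (Step d)] (x y : Fin d → ℤ) : Step d :=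
  if h : ∃ e, y = x + vec e then h.choose else Classical.arbitrary _

theorem mstp_spec [Nonempty (Step d)] {x y : Fin d → ℤ} (h : ∃ e, y = x + vec e) :
    y = x + vec (mstp x y) := by
  unfold mstp
  rw [dif_pos h]
  exact h.choose_spec

section
variable {Ω : Type*} [MeasurableSpace Ω] {P : Measure Ω} {μ : Measure (Step d → ℝ)}
    {env : (Fin d → ℤ) → Ω → Step d → ℝ} {X : ℕ → Ω → Fin d → ℤ}

theorem model_good (hX : IsRWRE P μ env X) :
    ∀ᵐ ω ∂P, X 0 ω = 0 ∧ ∀ n, ∃ e, X (n + 1) ω = X n ω + vec e := by
  have h1 : ∀ n, ∀ᵐ ω ∂P, X 0 ω = 0 → ∃ e, X (n + 1) ω = X n ω + vec e := by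
    intro n
    have h2 : ∀ x : Fin (n + 2) → Fin d → ℤ, ∀ᵐ ω ∂P,
        ¬ (x 0 = 0 ∧ (¬ ∃ e, x (Fin.last (n + 1)) = x ⟨n, by omega⟩ + vec e) ∧
          ∀ k : Fin (n + 2), X k ω = x k) := by
      intro x
      rw [ae_iff]
      by_cases hx : x 0 = 0 ∧ (¬ ∃ e, x (Fin.last (n + 1)) = x ⟨n, by omega⟩ + vec e)
      swap
      · have : {a | ¬¬(x 0 = 0 ∧ (¬ ∃ e, x (Fin.last (n + 1)) = x ⟨n, by omega⟩ + vec e) ∧
          ∀ k : Fin (n + 2), X k a = x k)} = ∅ := by
          ext a
          simp only [not_not, Set.mem_ofPred_eq, Set.mem_empty_iff_false, iff_false]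
          rintro ⟨h3, h4, _⟩
          exact hx ⟨h3, h4⟩
        rw [this]; exact measure_empty
      let y : ℕ → Fin d → ℤ := fun k => if h : k < n + 2 then x ⟨k, h⟩ else 0
      have hy0 : y 0 = 0 := by
        have : y 0 = x 0 := by simp [y]
        rw [this]; exact hx.1
      have hm := hX.markov (n + 1) y hy0 Set.univ MeasurableSet.univ
      have hz : ∀ ω, ∏ k ∈ Finset.range (n + 1),
          (∑ e : Step d, if y k + vec e = y (k + 1) then ENNReal.ofReal (env (y k) ω e) else 0)
          = 0 := by
        intro ω
        refine Finset.prod_eq_zero (Finset.mem_range.2 (Nat.lt_succ_self n)) ?_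
        refine Finset.sum_eq_zero fun e _ => ?_
        rw [if_neg]
        intro h3
        apply hx.2
        refine ⟨e, ?_⟩
        have h4 : y n = x ⟨n, by omega⟩ := by simp [y]
        have h5 : y (n + 1) = x (Fin.last (n + 1)) := by
          simp only [y]
          rw [dif_pos (by omega)]; rfl
        rw [← h4, ← h5]; exact h3.symm
      have h6 : P {ω | (fun y => env y ω) ∈ (Set.univ : Set ((Fin d → ℤ) → Step d → ℝ)) ∧
          ∀ k ≤ n + 1, X k ω = y k} = 0 := by
        rw [hm]
        simp only [hz]
        simp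
      refine measure_mono_null ?_ h6
      intro ω hω
      simp only [not_not, Set.mem_ofPred_eq] at hω
      refine ⟨Set.mem_univ _, fun k hk => ?_⟩
      have h7 := hω.2.2 ⟨k, by omega⟩
      have h8 : y k = x ⟨k, by omega⟩ := by
        simp only [y]
        rw [dif_pos (by omega)]
      rw [h8]; exact h7
    have h3 := ae_all_iff.2 h2
    filter_upwards [h3] with ω hω h0
    by_contra hcon
    exact hω (fun k => X k ω) ⟨h0, hcon, fun k => rfl⟩
  have h4 := ae_all_iff.2 h1
  filter_upwards [h4, hX.start] with ω h5 h6
  exact ⟨h6, fun n => h5 n h6⟩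

theorem model_pos_eq [Nonempty (Step d)] {ω : Ω}
    (h : X 0 ω = 0 ∧ ∀ n, ∃ e, X (n + 1) ω = X n ω + vec e) (n : ℕ) :
    pos (fun k => mstp (X k ω) (X (k + 1) ω)) n = X n ω := by
  induction n with
  | zero => rw [h.1]; simp [pos, pre, endp]
  | succ n ih =>
    rw [model_pos_succ, ih]
    exact (mstp_spec (h.2 n)).symm

theorem model_measurable_steps [Nonempty (Step d)] (hX : IsRWRE P μ env X) :
    Measurable (fun ω => (fun k => mstp (X k ω) (X (k + 1) ω) : ℕ → Step d)) := by
  refine measurable_pi_lambda _ fun k => ?_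
  exact (Measurable.of_discrete (f := fun q : (Fin d → ℤ) × (Fin d → ℤ) => mstp q.1 q.2)).comp
      ((hX.walk_meas k).prodMk (hX.walk_meas (k + 1)))

theorem model_cyl [Nonempty (Step d)] (hX : IsRWRE P μ env X) (l : List (Step d)) :
    P.map (fun ω => (fun k => mstp (X k ω) (X (k + 1) ω) : ℕ → Step d)) (cyl l)
      = ∫⁻ ω, mwt (fun y => env y ω) 0 l ∂P := by
  rw [Measure.map_apply (model_measurable_steps hX) (model_measurableSet_cyl l)]
  have h1 : P ((fun ω => (fun k => mstp (X k ω) (X (k + 1) ω) : ℕ → Step d)) ⁻¹' cyl l)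
      = P {ω | (fun y => env y ω) ∈ (Set.univ : Set ((Fin d → ℤ) → Step d → ℝ)) ∧
          ∀ k ≤ l.length, X k ω = endp (l.take k)} := by
    refine measure_congr ?_
    filter_upwards [model_good hX] with ω hω
    apply propext
    change (fun k => mstp (X k ω) (X (k + 1) ω)) ∈ cyl l ↔ _
    rw [model_cyl_iff]
    constructor
    · intro h
      refine ⟨Set.mem_univ _, fun k hk => ?_⟩
      rw [← h k hk, model_pos_eq hω]
    · rintro ⟨_, h⟩ k hk
      rw [model_pos_eq hω]; exact h k hk
  rw [h1, hX.markov l.length (fun k => endp (l.take k)) (by simp [endp]) Set.univ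
    MeasurableSet.univ]
  simp only [Set.mem_univ, Set.ofPred_true, Measure.restrict_univ]
  refine lintegral_congr fun ω => ?_
  have := model_prod (fun y => env y ω) 0 l
  simp only [zero_add] at this
  exact this

theorem model_trans (hX : IsRWRE P μ env X) (y : Fin d → ℤ) (l : List (Step d)) :
    ∫⁻ ω, mwt (fun x => env x ω) y l ∂P = ∫⁻ ω, mwt (fun x => env x ω) 0 l ∂P := by
  have := hX.prob
  have h1 : ∀ y : Fin d → ℤ, ∫⁻ ω, mwt (fun x => env x ω) y l ∂P
      = ∫⁻ p, mwt p 0 l ∂(Measure.infinitePi (fun _ : Fin d → ℤ => μ)) := by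
    intro y
    have h2 : iIndepFun (fun x => env (y + x)) P :=
      hX.env_indep.precomp (add_right_injective y)
    have h3 := h2.map_fun_eq_infinitePi_map (fun x => hX.env_meas (y + x))
    simp only [hX.env_law] at h3
    rw [← h3, lintegral_map (measurable_mwt 0 l)
      (measurable_pi_lambda _ fun x => hX.env_meas (y + x))]
    refine lintegral_congr fun ω => ?_
    have := mwt_shift (fun x => env x ω) y 0 l
    rw [add_zero] at this
    exact this.symm
  rw [h1 y, h1 0]

/-- extension by zero of a partial environment -/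
noncomputable def mext (S : Finset (Fin d → ℤ)) (q : S → Step d → ℝ) :
    (Fin d → ℤ) → Step d → ℝ :=
  fun x => if h : x ∈ S then q ⟨x, h⟩ else 0

theorem measurable_mext (S : Finset (Fin d → ℤ)) : Measurable (mext (d := d) S) := by
  refine measurable_pi_lambda _ fun x => ?_
  unfold mext
  by_cases h : x ∈ S
  · simp only [dif_pos h]; exact measurable_pi_apply _
  · simp only [dif_neg h]; exact measurable_const

theorem model_indep (hX : IsRWRE P μ env X) (l m : List (Step d))
    (h : ∀ x ∈ Sites l, ∀ y ∈ Sites m, x ≠ endp l + y) :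
    ∫⁻ ω, mwt (fun x => env x ω) 0 l * mwt (fun x => env x ω) (endp l) m ∂P
      = (∫⁻ ω, mwt (fun x => env x ω) 0 l ∂P) * ∫⁻ ω, mwt (fun x => env x ω) (endp l) m ∂P := by
  classical
  let S : Finset (Fin d → ℤ) := (Finset.range l.length).image fun k => endp (l.take k)
  let T : Finset (Fin d → ℤ) := (Finset.range m.length).image fun k => endp l + endp (m.take k)
  have hST : Disjoint S T := by
    rw [Finset.disjoint_left]
    intro x hxS hxT
    simp only [S, T, Finset.mem_image, Finset.mem_range] at hxS hxT
    obtain ⟨k, hk, rfl⟩ := hxS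
    obtain ⟨k', hk', h2⟩ := hxT
    exact h _ ⟨k, hk, rfl⟩ _ ⟨k', hk', rfl⟩ h2.symm
  have h1 := hX.env_indep.indepFun_finset S T hST hX.env_meas
  have h2 : IndepFun (fun ω => mwt (mext S (fun i : S => env i ω)) 0 l)
      (fun ω => mwt (mext T (fun i : T => env i ω)) (endp l) m) P :=
    h1.comp (φ := fun q => mwt (mext S q) 0 l) (ψ := fun q => mwt (mext T q) (endp l) m)
      ((measurable_mwt 0 l).comp (measurable_mext S))
      ((measurable_mwt (endp l) m).comp (measurable_mext T))
  have h3 : ∀ ω, mwt (mext S (fun i : S => env i ω)) 0 l = mwt (fun x => env x ω) 0 l := by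
    intro ω
    refine mwt_congr _ _ _ _ fun k hk => ?_
    have hmem : (0 : Fin d → ℤ) + endp (l.take k) ∈ S := by
      rw [zero_add]
      exact Finset.mem_image_of_mem _ (Finset.mem_range.2 hk)
    unfold mext
    rw [dif_pos hmem]
  have h4 : ∀ ω, mwt (mext T (fun i : T => env i ω)) (endp l) m
      = mwt (fun x => env x ω) (endp l) m := by
    intro ω
    refine mwt_congr _ _ _ _ fun k hk => ?_
    have hmem : endp l + endp (m.take k) ∈ T :=
      Finset.mem_image_of_mem _ (Finset.mem_range.2 hk)
    unfold mext
    rw [dif_pos hmem]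
  simp only [h3, h4] at h2
  have hmeas : ∀ (y : Fin d → ℤ) (l : List (Step d)),
      Measurable (fun ω => mwt (fun x => env x ω) y l) := fun y l =>
    (measurable_mwt y l).comp (measurable_pi_lambda _ fun x => hX.env_meas x)
  exact lintegral_mul_eq_lintegral_mul_lintegral_of_indepFun (hmeas _ _) (hmeas _ _) h2

end

theorem model {Ω : Type*} [MeasurableSpace Ω] (P : Measure Ω) (μ : Measure (Step d → ℝ))
    (env : (Fin d → ℤ) → Ω → Step d → ℝ) (X : ℕ → Ω → Fin d → ℤ) (hX : IsRWRE P μ env X)
    (hμ : ∀ᵐ p ∂μ, (∀ e, 0 ≤ p e) ∧ ∑ e, p e = 1)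
    (hpos : ∀ e, 0 < ∫ p, p e ∂μ) :
    ∃ ν : Measure (ℕ → Step d), Law ν ∧ ∀ E : Set (ℕ → Fin d → ℤ), MeasurableSet E →
      P {ω | (fun n => X n ω) ∈ E} = ν {s | (fun n => pos s n) ∈ E} := by
  have := hX.prob
  have henv : ∀ᵐ ω ∂P, ∀ x, (∀ e, 0 ≤ env x ω e) ∧ ∑ e, env x ω e = 1 := by
    refine ae_all_iff.2 fun x => ?_
    have h1 := hμ
    rw [← hX.env_law x] at h1
    exact ae_of_ae_map (hX.env_meas x).aemeasurable h1
  have hne : Nonempty (Step d) := by
    obtain ⟨ω, hω⟩ := henv.exists
    by_contra hcon
    rw [not_nonempty_iff] at hcon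
    have h1 := (hω 0).2
    rw [Finset.univ_eq_empty, Finset.sum_empty] at h1
    exact zero_ne_one h1
  have hle : ∀ᵐ ω ∂P, ∀ x e, env x ω e ≤ 1 := by
    filter_upwards [henv] with ω hω x e
    rw [← (hω x).2]
    exact Finset.single_le_sum (f := fun e => env x ω e) (fun e _ => (hω x).1 e)
      (Finset.mem_univ e)
  refine ⟨P.map (fun ω => (fun k => mstp (X k ω) (X (k + 1) ω) : ℕ → Step d)), ?_, ?_⟩
  · refine ⟨?_, ?_, ?_, ?_⟩
    · rw [Measure.map_apply (model_measurable_steps hX) MeasurableSet.univ]
      simp
    · intro l m h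
      rw [model_cyl hX, model_cyl hX, model_cyl hX]
      have h1 : ∀ ω, mwt (fun x => env x ω) 0 (l ++ m)
          = mwt (fun x => env x ω) 0 l * mwt (fun x => env x ω) (endp l) m := by
        intro ω
        rw [mwt_append, zero_add]
      simp only [h1]
      rw [model_indep hX l m h, model_trans hX (endp l) m]
    · intro l m
      rw [model_cyl hX, model_cyl hX, ← model_trans hX (endp l) m]
      refine lintegral_mono_ae ?_
      filter_upwards [hle] with ω hω
      rw [mwt_append, zero_add]
      calc _ ≤ 1 * mwt (fun x => env x ω) (endp l) m :=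
            mul_le_mul' (mwt_le_one _ hω _ _) le_rfl
        _ = _ := one_mul _
    · intro e
      rw [model_cyl hX]
      simp only [mwt, mul_one]
      rw [pos_iff_ne_zero]
      intro h0
      have hm : Measurable (fun p : Step d → ℝ => ENNReal.ofReal (p e)) :=
        ENNReal.measurable_ofReal.comp (measurable_pi_apply e)
      have h1 : ∫⁻ p, ENNReal.ofReal (p e) ∂μ = 0 := by
        rw [← hX.env_law 0, lintegral_map hm (hX.env_meas 0)]
        exact h0
      rw [lintegral_eq_zero_iff hm] at h1
      have h2 : ∫ p, p e ∂μ ≤ 0 := by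
        refine integral_nonpos_of_ae ?_
        filter_upwards [h1] with p hp
        exact ENNReal.ofReal_eq_zero.1 hp
      exact absurd (hpos e) (not_lt.2 h2)
  · intro E hE
    have hmE : MeasurableSet {s : ℕ → Step d | (fun n => pos s n) ∈ E} :=
      (measurable_pi_lambda _ fun n => model_measurable_pos n) hE
    rw [Measure.map_apply (model_measurable_steps hX) hmE]
    refine measure_congr ?_
    filter_upwards [model_good hX] with ω hω
    apply propext
    change (fun n => X n ω) ∈ E ↔
      (fun n => pos (fun k => mstp (X k ω) (X (k + 1) ω)) n) ∈ E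
    have h1 : (fun n => pos (fun k => mstp (X k ω) (X (k + 1) ω)) n) = fun n => X n ω := by
      funext n; exact model_pos_eq hω n
    rw [h1]

end Vale.Agent.Lib.P147
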