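import Vale.Agent.Lib.P147.Main
import Vale.Agent.Lib.P147.Model

open MeasureTheory ProbabilityTheory Filter
open scoped ENNReal

namespace Vale.Agent.Lib.P147

variable {d : ℕ}

theorem meas_up (i : Fin d) : MeasurableSet {x : ℕ → Fin d → ℤ |
    ∃ c : ℝ, 0 < c ∧ ∀ᶠ n : ℕ in atTop, c * n ≤ (x n i : ℝ)} := by
  have : {x : ℕ → Fin d → ℤ | ∃ c : ℝ, 0 < c ∧ ∀ᶠ n : ℕ in atTop, c * n ≤ (x n i : ℝ)} =
      ⋃ k : ℕ, ⋃ M : ℕ, ⋂ n : ℕ, {x : ℕ → Fin d → ℤ | M ≤ n → (1 / ((k : ℝ) + 1)) * n ≤ (x n i : ℝ)} := by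
    ext x
    simp only [Set.mem_ofPred_eq, Set.mem_iUnion, Set.mem_iInter, eventually_atTop]
    constructor
    · rintro ⟨c, hc, M, hM⟩
      obtain ⟨k, hk⟩ := exists_nat_one_div_lt hc
      refine ⟨k, M, fun n hn => le_trans ?_ (hM n hn)⟩
      gcongr
    · rintro ⟨k, M, hM⟩
      exact ⟨1 / ((k : ℝ) + 1), by positivity, M, hM⟩
  rw [this]
  refine MeasurableSet.iUnion fun k => MeasurableSet.iUnion fun M => MeasurableSet.iInter fun n => ?_
  by_cases hn : M ≤ n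
  · simp only [hn, true_implies]
    have hm : Measurable (fun x : ℕ → Fin d → ℤ => (x n i : ℝ)) := by
      have h1 : Measurable (fun x : ℕ → Fin d → ℤ => x n i) :=
        (measurable_pi_apply i).comp (measurable_pi_apply n)
      exact (measurable_from_top (f := fun z : ℤ => (z : ℝ))).comp h1
    exact measurableSet_le measurable_const hm
  · simp [hn]

theorem meas_down (i : Fin d) : MeasurableSet {x : ℕ → Fin d → ℤ |
    ∃ c : ℝ, 0 < c ∧ ∀ᶠ n : ℕ in atTop, (x n i : ℝ) ≤ -(c * n)} := by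
  have : {x : ℕ → Fin d → ℤ | ∃ c : ℝ, 0 < c ∧ ∀ᶠ n : ℕ in atTop, (x n i : ℝ) ≤ -(c * n)} =
      ⋃ k : ℕ, ⋃ M : ℕ, ⋂ n : ℕ, {x : ℕ → Fin d → ℤ | M ≤ n → (x n i : ℝ) ≤ -((1 / ((k : ℝ) + 1)) * n)} := by
    ext x
    simp only [Set.mem_ofPred_eq, Set.mem_iUnion, Set.mem_iInter, eventually_atTop]
    constructor
    · rintro ⟨c, hc, M, hM⟩
      obtain ⟨k, hk⟩ := exists_nat_one_div_lt hc
      refine ⟨k, M, fun n hn => le_trans (hM n hn) ?_⟩
      have : 1 / ((k : ℝ) + 1) * n ≤ c * n := by gcongr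
      linarith
    · rintro ⟨k, M, hM⟩
      exact ⟨1 / ((k : ℝ) + 1), by positivity, M, hM⟩
  rw [this]
  refine MeasurableSet.iUnion fun k => MeasurableSet.iUnion fun M => MeasurableSet.iInter fun n => ?_
  by_cases hn : M ≤ n
  · simp only [hn, true_implies]
    have hm : Measurable (fun x : ℕ → Fin d → ℤ => (x n i : ℝ)) := by
      have h1 : Measurable (fun x : ℕ → Fin d → ℤ => x n i) :=
        (measurable_pi_apply i).comp (measurable_pi_apply n)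
      exact (measurable_from_top (f := fun z : ℤ => (z : ℝ))).comp h1
    exact measurableSet_le hm measurable_const
  · simp [hn]

/-- three lateral directions -/
theorem exists_lateral (hd : 4 ≤ d) (i : Fin d) :
    ∃ j : Fin 3 → Fin d, (∀ a, j a ≠ i) ∧ Function.Injective j := by
  have hcard : 3 ≤ (Finset.univ.erase i : Finset (Fin d)).card := by
    rw [Finset.card_erase_of_mem (Finset.mem_univ i), Finset.card_univ, Fintype.card_fin]
    omega
  obtain ⟨t, ht, ht3⟩ := Finset.exists_subset_card_eq hcard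
  let e := (Finset.equivFinOfCardEq ht3).symm
  refine ⟨fun a => (e a : Fin d), fun a => ?_, fun a b hab => ?_⟩
  · exact Finset.ne_of_mem_erase (ht (e a).2)
  · exact e.injective (Subtype.ext hab)

theorem two_speeds (hd : 4 ≤ d) {Ω : Type*} [MeasurableSpace Ω] (P : Measure Ω)
    (μ : Measure (Step d → ℝ))
    (env : (Fin d → ℤ) → Ω → Step d → ℝ) (X : ℕ → Ω → Fin d → ℤ) (hX : IsRWRE P μ env X)
    (hμ : ∀ᵐ p ∂μ, (∀ e, 0 ≤ p e) ∧ ∑ e, p e = 1)
    (hpos : ∀ e, 0 < ∫ p, p e ∂μ) (i : Fin d) :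
    P {ω | ∃ c : ℝ, 0 < c ∧ ∀ᶠ n : ℕ in atTop, c * n ≤ (X n ω i : ℝ)} = 0 ∨
    P {ω | ∃ c : ℝ, 0 < c ∧ ∀ᶠ n : ℕ in atTop, (X n ω i : ℝ) ≤ -(c * n)} = 0 := by
  obtain ⟨ν, hν, hE⟩ := model P μ env X hX hμ hpos
  obtain ⟨j, hij, hj⟩ := exists_lateral hd i
  by_contra hcon
  push Not at hcon
  obtain ⟨h1, h2⟩ := hcon
  have e1 := hE _ (meas_up i)
  have e2 := hE _ (meas_down i)
  simp only [Set.mem_ofPred_eq] at e1 e2
  refine main hν i j hij hj ?_ ?_
  · rw [← e1]; exact pos_iff_ne_zero.2 h1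
  · rw [← e2]; exact pos_iff_ne_zero.2 h2

end Vale.Agent.Lib.P147
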