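import Vale.Agent.Lib.P147.Defs

/-! Module FLIP. -/

open MeasureTheory
open scoped ENNReal

namespace Vale.Agent.Lib.P147

variable {d : ℕ}

lemma FLIP_endp_nil : endp ([] : List (Step d)) = 0 := rfl

lemma FLIP_endp_cons (e : Step d) (l : List (Step d)) : endp (e :: l) = vec e + endp l := by
  simp [endp]

lemma FLIP_endp_append (l m : List (Step d)) : endp (l ++ m) = endp l + endp m := by
  simp [endp]

lemma FLIP_vec_ne (i j : Fin d) (hij : j ≠ i) (σ : Bool) : vec (j, σ) i = 0 := by
  simp [vec, Pi.single_apply, hij.symm]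

lemma FLIP_vec_self (i : Fin d) (σ : Bool) : vec (i, σ) i = if σ then 1 else -1 := by
  simp [vec]

lemma FLIP_sites {i j : Fin d} (hij : j ≠ i) {m : List (Step d)}
    (hm : ∀ k ≤ m.length, endp (m.take k) i ≤ 0) (σ : Bool) :
    ∀ y ∈ Sites ([(j, σ), (i, false)] ++ m), y i ≤ 0 := by
  rintro y ⟨k, hk, rfl⟩
  rcases k with _ | _ | k
  · simp [FLIP_endp_nil]
  · simp [FLIP_endp_cons, FLIP_endp_nil, FLIP_vec_ne i j hij]
  · have h1 : k ≤ m.length := by
      simp only [List.length_append, List.length_cons, List.length_nil] at hk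
      omega
    have h2 := hm k h1
    simp only [List.cons_append, List.nil_append, List.take_succ_cons, FLIP_endp_cons,
      Pi.add_apply, FLIP_vec_ne i j hij, FLIP_vec_self]
    simp only [Bool.false_eq_true, if_false]
    linarith

/-- the sign at a mark can be changed, at the price of a constant factor -/
theorem flip_weight {ν : Measure (ℕ → Step d)} (h : Law ν) (i j : Fin d) (hij : j ≠ i)
    (γ m : List (Step d)) (μ : ℤ) (hγ : endp γ i = μ) (hγ' : ∀ k < γ.length, μ < endp (γ.take k) i)
    (hm : ∀ k ≤ m.length, endp (m.take k) i ≤ 0) (σ : Bool) :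
    ν (cyl (γ ++ [(j, σ), (i, false)] ++ m)) =
      ν (cyl γ) * ν (cyl [(j, σ)]) * ν (cyl [(i, false)]) * ν (cyl m) := by
  have h1 : ν (cyl (γ ++ ([(j, σ), (i, false)] ++ m))) =
      ν (cyl γ) * ν (cyl ([(j, σ), (i, false)] ++ m)) := by
    refine h.mul _ _ ?_
    rintro x ⟨k, hk, rfl⟩ y hy he
    have h2 := congrFun he i
    have h3 := FLIP_sites hij hm σ y hy
    have h4 := hγ' k hk
    rw [Pi.add_apply, hγ] at h2
    linarith
  have h2 : ν (cyl ([(j, σ)] ++ ([(i, false)] ++ m))) =
      ν (cyl [(j, σ)]) * ν (cyl ([(i, false)] ++ m)) := by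
    refine h.mul _ _ ?_
    rintro x ⟨k, hk, rfl⟩ y ⟨l, hl, rfl⟩ he
    have hk0 : k = 0 := by simpa using hk
    subst hk0
    rcases l with _ | l
    · have h3 := congrFun he j
      cases σ <;> simp [FLIP_endp_cons, FLIP_endp_nil, vec] at h3
    · have h3 := congrFun he i
      have h4 : l ≤ m.length := by
        simp only [List.length_append, List.length_cons, List.length_nil] at hl
        omega
      have h5 := hm l h4
      simp only [List.take_zero, FLIP_endp_nil, List.cons_append, List.nil_append,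
        List.take_succ_cons, FLIP_endp_cons, Pi.add_apply, FLIP_vec_ne i j hij, FLIP_vec_self,
        Pi.zero_apply, Bool.false_eq_true, if_false] at h3
      linarith
  have h3 : ν (cyl ([(i, false)] ++ m)) = ν (cyl [(i, false)]) * ν (cyl m) := by
    refine h.mul _ _ ?_
    rintro x ⟨k, hk, rfl⟩ y ⟨l, hl, rfl⟩ he
    have hk0 : k = 0 := by simpa using hk
    subst hk0
    have h3 := congrFun he i
    have h5 := hm l hl.le
    simp only [List.take_zero, FLIP_endp_nil, FLIP_endp_cons, Pi.add_apply, FLIP_vec_self,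
      Pi.zero_apply, Bool.false_eq_true, if_false] at h3
    linarith
  rw [List.append_assoc, h1]
  have e : ([(j, σ), (i, false)] ++ m : List (Step d)) = [(j, σ)] ++ ([(i, false)] ++ m) := rfl
  rw [e, h2, h3]
  ring

end Vale.Agent.Lib.P147
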