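import Vale.Agent.Lib.P147.Ext

/-! P147: good downward walks have positive probability. -/

open MeasureTheory ProbabilityTheory Filter
open scoped ENNReal

namespace Vale.Agent.Lib.P147

variable {d : ℕ}

theorem goodY_of {ν : Measure (ℕ → Step d)} (h : Law ν) (i : Fin d) (j : Fin 3 → Fin d)
    {c b : ℝ} (hD : 0 < ν (Down i c b))
    (hmarks : ∀ a, ∃ C : ℝ, 0 ≤ C ∧ ∀ m Λ : ℕ, 0 < Λ →
      ν {s | (∀ n, pos s n i ≤ 0) ∧ nMark i (j a) s Λ < m} ≤ ENNReal.ofReal (C * m / Λ)) :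
    ∃ l₀ : ℕ, 0 < ν (GoodY i j c b l₀) := by
  choose C hC0 hC using hmarks
  have hfin := h.ne_top (Down i c b)
  set p : ℝ := (ν (Down i c b)).toReal with hp
  have hp0 : 0 < p := ENNReal.toReal_pos hD.ne' hfin
  set K : ℝ := ∑ a, C a with hK
  have hK0 : 0 ≤ K := Finset.sum_nonneg fun a _ => hC0 a
  -- choose l₀
  obtain ⟨l₀, hl₀⟩ : ∃ l₀ : ℕ, 2 * K * (1 / 2 : ℝ) ^ l₀ < p := by
    rcases hK0.eq_or_lt with h0 | h0
    · exact ⟨0, by rw [← h0]; simpa using hp0⟩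
    · obtain ⟨n, hn⟩ := exists_pow_lt_of_lt_one (show 0 < p / (2 * K) by positivity)
        (show (1 / 2 : ℝ) < 1 by norm_num)
      refine ⟨n, ?_⟩
      rw [lt_div_iff₀ (by positivity)] at hn
      linarith
  refine ⟨l₀, ?_⟩
  by_contra hcon
  have hzero : ν (GoodY i j c b l₀) = 0 := le_antisymm (not_lt.1 hcon) zero_le
  have hsub : Down i c b ⊆ GoodY i j c b l₀ ∪ ⋃ k : ℕ, ⋃ a : Fin 3,
      {s | (∀ n, pos s n i ≤ 0) ∧ nMark i (j a) s (16 ^ (l₀ + k)) < 8 ^ (l₀ + k)} := by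
    intro s hs
    by_cases hg : s ∈ GoodY i j c b l₀
    · exact Or.inl hg
    · right
      have : ¬ ∀ l, l₀ ≤ l → ∀ a, 8 ^ l ≤ nMark i (j a) s (16 ^ l) := fun hall => hg ⟨hs, hall⟩
      push Not at this
      obtain ⟨l, hl, a, hla⟩ := this
      obtain ⟨k, rfl⟩ := Nat.exists_eq_add_of_le hl
      exact Set.mem_iUnion.2 ⟨k, Set.mem_iUnion.2 ⟨a, fun n => (hs n).1, hla⟩⟩
  have hbound : ν (Down i c b) ≤ ∑' k : ℕ, ENNReal.ofReal (K * (1 / 2 : ℝ) ^ l₀ * (1 / 2 : ℝ) ^ k) := by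
    calc ν (Down i c b) ≤ ν (GoodY i j c b l₀) + ν (⋃ k : ℕ, ⋃ a : Fin 3,
      {s | (∀ n, pos s n i ≤ 0) ∧ nMark i (j a) s (16 ^ (l₀ + k)) < 8 ^ (l₀ + k)}) :=
          (measure_mono hsub).trans (measure_union_le _ _)
      _ = ν (⋃ k : ℕ, ⋃ a : Fin 3,
      {s | (∀ n, pos s n i ≤ 0) ∧ nMark i (j a) s (16 ^ (l₀ + k)) < 8 ^ (l₀ + k)}) := by
          rw [hzero, zero_add]
      _ ≤ ∑' k : ℕ, ν (⋃ a : Fin 3,
      {s | (∀ n, pos s n i ≤ 0) ∧ nMark i (j a) s (16 ^ (l₀ + k)) < 8 ^ (l₀ + k)}) :=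
          measure_iUnion_le _
      _ ≤ ∑' k : ℕ, ENNReal.ofReal (K * (1 / 2 : ℝ) ^ l₀ * (1 / 2 : ℝ) ^ k) := by
          refine ENNReal.tsum_le_tsum fun k => ?_
          calc ν (⋃ a : Fin 3,
            {s | (∀ n, pos s n i ≤ 0) ∧ nMark i (j a) s (16 ^ (l₀ + k)) < 8 ^ (l₀ + k)})
              ≤ ∑ a : Fin 3, ν (
              {s | (∀ n, pos s n i ≤ 0) ∧ nMark i (j a) s (16 ^ (l₀ + k)) < 8 ^ (l₀ + k)}) :=
                measure_iUnion_fintype_le _ _
            _ ≤ ∑ a : Fin 3, ENNReal.ofReal (C a * ((8 ^ (l₀ + k) : ℕ) : ℝ) / ((16 ^ (l₀ + k) : ℕ) : ℝ)) :=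
                Finset.sum_le_sum fun a _ => hC a _ _ (by positivity)
            _ = ENNReal.ofReal (K * (1 / 2 : ℝ) ^ l₀ * (1 / 2 : ℝ) ^ k) := by
                rw [← ENNReal.ofReal_sum_of_nonneg]
                · congr 1
                  rw [hK, Finset.sum_mul, Finset.sum_mul]
                  refine Finset.sum_congr rfl fun a _ => ?_
                  rw [mul_assoc, ← pow_add, mul_div_assoc]
                  congr 1
                  push_cast
                  rw [← div_pow]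
                  norm_num
                · intro a _
                  have := hC0 a
                  positivity
  have hsum : ∑' k : ℕ, ENNReal.ofReal (K * (1 / 2 : ℝ) ^ l₀ * (1 / 2 : ℝ) ^ k) =
      ENNReal.ofReal (2 * K * (1 / 2 : ℝ) ^ l₀) := by
    rw [← ENNReal.ofReal_tsum_of_nonneg]
    · congr 1
      rw [tsum_mul_left, tsum_geometric_of_lt_one (by norm_num) (by norm_num)]
      ring
    · intro k
      positivity
    · exact (summable_geometric_of_lt_one (by norm_num) (by norm_num)).mul_left _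
  rw [hsum] at hbound
  have h3 := ENNReal.toReal_mono ENNReal.ofReal_ne_top hbound
  rw [ENNReal.toReal_ofReal (by positivity)] at h3
  linarith

end Vale.Agent.Lib.P147
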