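import Vale.Agent.Lib.P147.Ext

/-! P147, module GREEN: the expected number of visits in a lateral box is `o(R ^ 3)`. -/

open MeasureTheory ProbabilityTheory Filter
open scoped ENNReal

namespace Vale.Agent.Lib.P147

variable {d : ℕ}

theorem green_measurable_pos (n : ℕ) : Measurable (fun s : ℕ → Step d => pos s n) := by
  induction n with
  | zero => simp only [pos_zero]; exact measurable_const
  | succ n ih =>
    simp only [pos_succ]
    exact ih.add ((Measurable.of_discrete (f := vec)).comp (measurable_pi_apply n))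

theorem green_measurable_posi (i : Fin d) (n : ℕ) :
    Measurable (fun s : ℕ → Step d => pos s n i) :=
  (measurable_pi_apply i).comp (green_measurable_pos n)

theorem green_measurableSet_Down (i : Fin d) (c b : ℝ) : MeasurableSet (Down i c b) := by
  have : Down i c b = Ev (fun l : List (Step d) => endp l i ≤ 0 ∧
      (endp l i : ℝ) ≤ b - c * l.length) := by
    ext s
    simp [Down, Ev, pos]
  rw [this]
  exact measurableSet_Ev _

/-- expected number of visits to the level `- lam` -/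
noncomputable def Vis (ν : Measure (ℕ → Step d)) (i : Fin d) (c b : ℝ) (lam : ℕ) : ℝ≥0∞ :=
  ∑' n : ℕ, ν {s | s ∈ Down i c b ∧ pos s n i = -(lam : ℤ)}

theorem sum_Vis {ν : Measure (ℕ → Step d)} (h : Law ν) (i : Fin d) {c b : ℝ} (hc : 0 < c)
    (hb : 0 ≤ b) (Λ : ℕ) :
    ∑ lam ∈ Finset.range Λ, Vis ν i c b lam ≤ ENNReal.ofReal ((Λ + b) / c + 1) := by
  unfold Vis
  rw [← Summable.tsum_finsetSum (fun _ _ => ENNReal.summable)]
  set N : ℕ := ⌊(Λ + b) / c⌋₊ + 1 with hN
  have h1 : ∀ n : ℕ, ∑ lam ∈ Finset.range Λ, ν {s | s ∈ Down i c b ∧ pos s n i = -(lam : ℤ)}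
      ≤ if n < N then 1 else 0 := by
    intro n
    rw [← measure_biUnion_finset]
    · split_ifs with hn
      · exact (measure_mono (Set.subset_univ _)).trans (le_of_eq h.prob)
      · rw [nonpos_iff_eq_zero]
        convert measure_empty (μ := ν)
        rw [Set.eq_empty_iff_forall_notMem]
        intro s hs
        simp only [Set.mem_iUnion, Set.mem_setOf_eq, Finset.mem_range] at hs
        obtain ⟨lam, hlam, hD, hp⟩ := hs
        have h2 := (hD n).2
        rw [hp] at h2
        have h3 : (Λ + b) / c < n := by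
          refine (Nat.lt_floor_add_one _).trans_le ?_
          have : N ≤ n := not_lt.mp hn
          have h4 : ((⌊(Λ + b) / c⌋₊ : ℝ) + 1) = (N : ℝ) := by rw [hN]; push_cast; ring
          rw [h4]
          exact_mod_cast this
        rw [div_lt_iff₀ hc] at h3
        have h5 : (lam : ℝ) < Λ := by exact_mod_cast hlam
        push_cast at h2
        linarith
    · intro x _ y _ hxy
      rw [Function.onFun, Set.disjoint_left]
      intro s hs ht
      simp only [Set.mem_setOf_eq] at hs ht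
      have := hs.2.symm.trans ht.2
      apply hxy
      have h6 : (x : ℤ) = y := by linarith
      exact_mod_cast h6
    · intro lam _
      refine (green_measurableSet_Down i c b).inter ?_
      exact (green_measurable_posi i n) (measurableSet_singleton _)
  refine (ENNReal.tsum_le_tsum h1).trans ?_
  rw [tsum_eq_sum (s := Finset.range N) (fun n hn => by
    rw [if_neg]; simpa using hn)]
  rw [Finset.sum_congr rfl (fun n hn => if_pos (Finset.mem_range.mp hn))]
  simp only [Finset.sum_const, Finset.card_range, nsmul_eq_mul, mul_one]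
  rw [← ENNReal.ofReal_natCast]
  apply ENNReal.ofReal_le_ofReal
  rw [hN]
  push_cast
  have : (⌊(Λ + b) / c⌋₊ : ℝ) ≤ (Λ + b) / c := Nat.floor_le (by positivity)
  linarith

theorem box_zero {i : Fin d} {j : Fin 3 → Fin d} (hij : ∀ a, j a ≠ i) {R : ℕ}
    {z : Fin d → ℤ} (hz : z ∈ Box j R) : z i = 0 := by
  simp only [Box, Finset.mem_image] at hz
  obtain ⟨w, _, rfl⟩ := hz
  rw [Finset.sum_apply]
  refine Finset.sum_eq_zero fun a _ => ?_
  rw [Pi.single_apply, if_neg (hij a).symm]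

theorem box_card (j : Fin 3 → Fin d) (R : ℕ) : (Box j R).card ≤ R ^ 3 := by
  unfold Box
  refine Finset.card_image_le.trans ?_
  rw [Fintype.card_piFinset]
  simp

/-- trivial bound -/
theorem box_bound {ν : Measure (ℕ → Step d)} (i : Fin d) (j : Fin 3 → Fin d)
    (hij : ∀ a, j a ≠ i) (c b : ℝ) (l₀ R : ℕ) (v : Fin d → ℤ) (lam : ℕ)
    (hv : v i = -(lam : ℤ)) :
    ∑ z ∈ Box j R, ν (GoodY i j c b l₀ ∩ {s | ∃ n, pos s n = v - z}) ≤ Vis ν i c b lam := by
  have h1 : ∀ z ∈ Box j R, ν (GoodY i j c b l₀ ∩ {s | ∃ n, pos s n = v - z})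
      ≤ ∑' n : ℕ, ν {s | s ∈ Down i c b ∧ pos s n = v - z} := by
    intro z _
    refine (measure_mono ?_).trans (measure_iUnion_le _)
    rintro s ⟨hs, n, hn⟩
    exact Set.mem_iUnion.mpr ⟨n, hs.1, hn⟩
  refine (Finset.sum_le_sum h1).trans ?_
  rw [← Summable.tsum_finsetSum (fun _ _ => ENNReal.summable)]
  refine ENNReal.tsum_le_tsum fun n => ?_
  rw [← measure_biUnion_finset]
  · refine measure_mono ?_
    intro s hs
    simp only [Set.mem_iUnion, Set.mem_setOf_eq] at hs
    obtain ⟨z, hz, hD, hp⟩ := hs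
    refine ⟨hD, ?_⟩
    rw [hp, Pi.sub_apply, box_zero hij hz, hv, sub_zero]
  · intro x _ y _ hxy
    rw [Function.onFun, Set.disjoint_left]
    intro s hs ht
    simp only [Set.mem_setOf_eq] at hs ht
    have := hs.2.symm.trans ht.2
    exact hxy (sub_right_injective this)
  · intro z _
    refine (green_measurableSet_Down i c b).inter ?_
    exact (green_measurable_pos n) (measurableSet_singleton _)

/-- the statement of module SPREAD with constant `C` -/
def SpreadAt (ν : Measure (ℕ → Step d)) (i : Fin d) (j : Fin 3 → Fin d) (C : ℝ) : Prop :=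
  ∀ (c b : ℝ) (n m Λ : ℕ) (u : Fin d → ℤ), 0 < c → 0 < m →
      (Λ : ℤ) ≤ -u i →
      ν {s | s ∈ Down i c b ∧ (∀ a, m ≤ nMark i (j a) s Λ) ∧ pos s n = u} ≤
        ENNReal.ofReal (C / (m : ℝ) ^ ((3 : ℝ) / 2)) *
          ν {s | s ∈ Down i c b ∧ pos s n i = u i}

/-- the bound from the marks -/
theorem box_bound2 {ν : Measure (ℕ → Step d)} (i : Fin d) (j : Fin 3 → Fin d)
    (hij : ∀ a, j a ≠ i) {C : ℝ} (hS : SpreadAt ν i j C) {c : ℝ} (b : ℝ) (hc : 0 < c) (l₀ R : ℕ)
    (v : Fin d → ℤ) (lam : ℕ) (hv : v i = -(lam : ℤ)) (l : ℕ) (hl : l₀ ≤ l) (hlam : 16 ^ l ≤ lam) :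
    ∑ z ∈ Box j R, ν (GoodY i j c b l₀ ∩ {s | ∃ n, pos s n = v - z}) ≤
      (R : ℝ≥0∞) ^ 3 * ENNReal.ofReal (C / ((8 ^ l : ℕ) : ℝ) ^ ((3 : ℝ) / 2)) *
        Vis ν i c b lam := by
  have h1 : ∀ z ∈ Box j R, ν (GoodY i j c b l₀ ∩ {s | ∃ n, pos s n = v - z})
      ≤ ENNReal.ofReal (C / ((8 ^ l : ℕ) : ℝ) ^ ((3 : ℝ) / 2)) * Vis ν i c b lam := by
    intro z hz
    have h2 : ν (GoodY i j c b l₀ ∩ {s | ∃ n, pos s n = v - z}) ≤ ∑' n : ℕ,
        ν {s | s ∈ Down i c b ∧ (∀ a, 8 ^ l ≤ nMark i (j a) s (16 ^ l)) ∧ pos s n = v - z} := by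
      refine (measure_mono ?_).trans (measure_iUnion_le _)
      rintro s ⟨hs, n, hn⟩
      exact Set.mem_iUnion.mpr ⟨n, hs.1, hs.2 l hl, hn⟩
    refine h2.trans ?_
    unfold Vis
    rw [← ENNReal.tsum_mul_left]
    refine ENNReal.tsum_le_tsum fun n => ?_
    have hzi : (v - z) i = -(lam : ℤ) := by
      rw [Pi.sub_apply, box_zero hij hz, hv, sub_zero]
    have h3 := hS c b n (8 ^ l) (16 ^ l) (v - z) hc (by positivity) (by
      rw [hzi, neg_neg]
      exact_mod_cast hlam)
    rw [hzi] at h3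
    exact h3
  refine (Finset.sum_le_sum h1).trans ?_
  rw [Finset.sum_const, nsmul_eq_mul, mul_assoc]
  gcongr
  exact_mod_cast box_card j R

theorem green_of_spread {ν : Measure (ℕ → Step d)} (h : Law ν) (i : Fin d) (j : Fin 3 → Fin d)
    (hij : ∀ a, j a ≠ i) {C : ℝ} (hC : 0 ≤ C) (hS : SpreadAt ν i j C)
    {c b : ℝ} (hc : 0 < c) (hb : 0 ≤ b) (l₀ : ℕ)
    {ε : ℝ} (hε : 0 < ε) :
    ∃ (R : ℕ) (g : ℕ → ℝ≥0∞), 0 < R ∧
      (∀ (v : Fin d → ℤ) (lam : ℕ), v i = -(lam : ℤ) →
        ∑ z ∈ Box j R, ν (GoodY i j c b l₀ ∩ {s | ∃ n, pos s n = v - z}) ≤ g lam) ∧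
      ∑' lam, g lam ≤ ENNReal.ofReal (ε * (R : ℝ) ^ 3) := by
  set w : ℝ := (8 : ℝ) ^ ((3 : ℝ) / 2) with hw
  have hw16 : 16 < w := by
    have h1 : w = Real.sqrt 512 := by
      rw [Real.sqrt_eq_rpow, hw, show (512 : ℝ) = (8 : ℝ) ^ (3 : ℝ) by norm_num,
        ← Real.rpow_mul (by norm_num)]
      norm_num
    rw [h1]
    exact Real.lt_sqrt_of_sq_lt (by norm_num)
  have hw0 : 0 < w := by linarith
  set ρ : ℝ := 16 / w with hρ
  have hρ0 : 0 < ρ := by positivity
  have hρ1 : ρ < 1 := by rw [hρ, div_lt_one hw0]; exact hw16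
  have hpow : ∀ l : ℕ, (((8 ^ l : ℕ) : ℝ)) ^ ((3 : ℝ) / 2) = w ^ l := by
    intro l
    push_cast
    rw [hw, ← Real.rpow_natCast, ← Real.rpow_natCast, ← Real.rpow_mul (by norm_num),
      ← Real.rpow_mul (by norm_num), mul_comm]
  set D : ℝ := C * ((16 + b) / c + 1) with hD
  have hD0 : 0 ≤ D := by positivity
  set D' : ℝ := D / (1 - ρ) with hD'
  have hD'0 : 0 ≤ D' := div_nonneg hD0 (by linarith)
  -- choice of `l₁`
  obtain ⟨l₁, hl₁, hl₁ρ⟩ : ∃ l₁ : ℕ, l₀ ≤ l₁ ∧ D' * ρ ^ l₁ ≤ ε / 2 := by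
    have h1 : Tendsto (fun l : ℕ => D' * ρ ^ l) atTop (nhds (D' * 0)) :=
      (tendsto_pow_atTop_nhds_zero_of_lt_one hρ0.le hρ1).const_mul D'
    rw [mul_zero] at h1
    have h2 := h1.eventually (gt_mem_nhds (half_pos hε))
    obtain ⟨l₁, h3, h4⟩ := (h2.and (eventually_ge_atTop l₀)).exists
    exact ⟨l₁, h4, h3.le⟩
  set B₁ : ℝ := ((16 : ℝ) ^ l₁ + b) / c + 1 with hB₁
  have hB₁0 : 0 ≤ B₁ := by positivity
  obtain ⟨R, hR, hR0⟩ : ∃ R : ℕ, 2 * B₁ / ε ≤ R ∧ 0 < R := by
    obtain ⟨R, hR⟩ := exists_nat_ge (2 * B₁ / ε)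
    exact ⟨R + 1, hR.trans (by push_cast; linarith), Nat.succ_pos R⟩
  have hR1 : (1 : ℝ) ≤ R := by exact_mod_cast hR0
  have hB₁R : B₁ ≤ ε / 2 * (R : ℝ) ^ 3 := by
    have h1 : (R : ℝ) ≤ (R : ℝ) ^ 3 := by
      calc (R : ℝ) = (R : ℝ) ^ 1 := (pow_one _).symm
        _ ≤ (R : ℝ) ^ 3 := pow_le_pow_right₀ hR1 (by norm_num)
    rw [div_le_iff₀ hε] at hR
    nlinarith
  refine ⟨R, fun lam => if lam < 16 ^ l₁ then Vis ν i c b lam else
      (R : ℝ≥0∞) ^ 3 * ENNReal.ofReal (C / ((8 ^ (Nat.log 16 lam) : ℕ) : ℝ) ^ ((3 : ℝ) / 2)) *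
        Vis ν i c b lam, hR0, ?_, ?_⟩
  · intro v lam hv
    simp only
    split_ifs with hlam
    · exact box_bound i j hij c b l₀ R v lam hv
    · rw [not_lt] at hlam
      have h0 : lam ≠ 0 := by
        rintro rfl
        have : 0 < 16 ^ l₁ := by positivity
        omega
      refine box_bound2 i j hij hS b hc l₀ R v lam hv _ (hl₁.trans ?_) (Nat.pow_log_le_self 16 h0)
      exact Nat.le_log_of_pow_le (by norm_num) hlam
  · set g : ℕ → ℝ≥0∞ := fun lam => if lam < 16 ^ l₁ then Vis ν i c b lam else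
      (R : ℝ≥0∞) ^ 3 * ENNReal.ofReal (C / ((8 ^ (Nat.log 16 lam) : ℕ) : ℝ) ^ ((3 : ℝ) / 2)) *
        Vis ν i c b lam with hg
    have hind : ∀ K : ℕ, ∑ lam ∈ Finset.range (16 ^ (l₁ + K)), g lam ≤
        ENNReal.ofReal (B₁ + (R : ℝ) ^ 3 * (D' * (ρ ^ l₁ - ρ ^ (l₁ + K)))) := by
      intro K
      induction K with
      | zero =>
        simp only [add_zero, sub_self, mul_zero]
        have h1 : ∑ lam ∈ Finset.range (16 ^ l₁), g lam
            = ∑ lam ∈ Finset.range (16 ^ l₁), Vis ν i c b lam :=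
          Finset.sum_congr rfl fun lam hlam => by
            rw [hg]
            simp only
            rw [if_pos (Finset.mem_range.mp hlam)]
        rw [h1]
        refine (sum_Vis h i hc hb _).trans (ENNReal.ofReal_le_ofReal ?_)
        rw [hB₁]
        push_cast
        exact le_rfl
      | succ K ih =>
        set k := l₁ + K with hk
        have hk1 : l₁ + (K + 1) = k + 1 := by omega
        rw [hk1]
        have hle : (16 : ℕ) ^ k ≤ 16 ^ (k + 1) := Nat.pow_le_pow_right (by norm_num) (Nat.le_succ k)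
        rw [← Finset.sum_range_add_sum_Ico _ hle]
        have h2 : ∑ lam ∈ Finset.Ico (16 ^ k) (16 ^ (k + 1)), g lam ≤
            ENNReal.ofReal ((R : ℝ) ^ 3 * (D * ρ ^ k)) := by
          have h3 : ∀ lam ∈ Finset.Ico (16 ^ k) (16 ^ (k + 1)), g lam =
              (R : ℝ≥0∞) ^ 3 * ENNReal.ofReal (C / w ^ k) * Vis ν i c b lam := by
            intro lam hlam
            rw [Finset.mem_Ico] at hlam
            have h4 : ¬ lam < 16 ^ l₁ := by
              have : (16 : ℕ) ^ l₁ ≤ 16 ^ k :=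
                Nat.pow_le_pow_right (by norm_num) (Nat.le_add_right _ _)
              omega
            have h0 : lam ≠ 0 := by
              rintro rfl
              have : 0 < 16 ^ k := by positivity
              omega
            have h5 : Nat.log 16 lam = k :=
              (Nat.log_eq_iff (Or.inr ⟨by norm_num, h0⟩)).mpr hlam
            rw [hg]
            simp only
            rw [if_neg h4, h5, hpow]
          rw [Finset.sum_congr rfl h3, ← Finset.mul_sum]
          have h6 : ∑ lam ∈ Finset.Ico (16 ^ k) (16 ^ (k + 1)), Vis ν i c b lam ≤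
              ENNReal.ofReal ((((16 ^ (k + 1) : ℕ) : ℝ) + b) / c + 1) := by
            refine le_trans ?_ (sum_Vis h i hc hb _)
            refine Finset.sum_le_sum_of_subset ?_
            intro x hx
            rw [Finset.mem_Ico] at hx
            exact Finset.mem_range.mpr hx.2
          refine (mul_le_mul_right h6 _).trans ?_
          have h7 : (R : ℝ≥0∞) ^ 3 = ENNReal.ofReal ((R : ℝ) ^ 3) := by
            rw [ENNReal.ofReal_pow (by positivity), ENNReal.ofReal_natCast]
          rw [h7, ← ENNReal.ofReal_mul (by positivity), ← ENNReal.ofReal_mul (by positivity)]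
          apply ENNReal.ofReal_le_ofReal
          rw [mul_assoc]
          refine mul_le_mul_of_nonneg_left ?_ (by positivity)
          have h8 : (((16 ^ (k + 1) : ℕ) : ℝ) + b) / c + 1 ≤ (16 : ℝ) ^ k * ((16 + b) / c + 1) := by
            push_cast
            have h9 : (1 : ℝ) ≤ 16 ^ k := one_le_pow₀ (by norm_num)
            rw [mul_add, mul_one, ← mul_div_assoc]
            refine add_le_add ?_ h9
            refine div_le_div_of_nonneg_right ?_ hc.le
            rw [pow_succ]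
            nlinarith
          calc C / w ^ k * ((((16 ^ (k + 1) : ℕ) : ℝ) + b) / c + 1)
              ≤ C / w ^ k * ((16 : ℝ) ^ k * ((16 + b) / c + 1)) :=
                mul_le_mul_of_nonneg_left h8 (by positivity)
            _ = D * ρ ^ k := by
                rw [hD, hρ, div_pow]
                field_simp
        refine (add_le_add ih h2).trans ?_
        rw [← ENNReal.ofReal_add]
        · apply ENNReal.ofReal_le_ofReal
          have h10 : D * ρ ^ k = D' * (ρ ^ k - ρ ^ (k + 1)) := by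
            rw [hD', pow_succ]
            have : (1 - ρ) ≠ 0 := by linarith
            field_simp
          rw [h10]
          apply le_of_eq
          ring
        · have h11 : ρ ^ k ≤ ρ ^ l₁ :=
            pow_le_pow_of_le_one hρ0.le hρ1.le (Nat.le_add_right _ _)
          have : 0 ≤ ρ ^ l₁ - ρ ^ k := by linarith
          positivity
        · positivity
    refine ENNReal.tsum_le_of_sum_range_le fun n => ?_
    have h12 : Finset.range n ⊆ Finset.range (16 ^ (l₁ + n)) := by
      intro x hx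
      rw [Finset.mem_range] at hx ⊢
      calc x < n := hx
        _ < 16 ^ n := Nat.lt_pow_self (by norm_num)
        _ ≤ 16 ^ (l₁ + n) := Nat.pow_le_pow_right (by norm_num) (Nat.le_add_left _ _)
    refine (Finset.sum_le_sum_of_subset h12).trans ((hind n).trans ?_)
    apply ENNReal.ofReal_le_ofReal
    have h13 : D' * (ρ ^ l₁ - ρ ^ (l₁ + n)) ≤ ε / 2 := by
      have : 0 ≤ D' * ρ ^ (l₁ + n) := by positivity
      nlinarith
    have h14 : (0 : ℝ) ≤ (R : ℝ) ^ 3 := by positivity
    nlinarith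

end Vale.Agent.Lib.P147
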