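import Vale.Agent.Lib.P147.Defs

/-! P147, module LAT: a lateral monotone path has positive weight. -/

open MeasureTheory ProbabilityTheory Filter
open scoped ENNReal

namespace Vale.Agent.Lib.P147

variable {d : ℕ}

theorem lat_len (Φ : (Fin d → ℤ) →+ ℤ) (l : List (Step d)) (hl : ∀ e ∈ l, Φ (vec e) = 1) :
    Φ (endp l) = l.length := by
  induction l with
  | nil => simp [endp]
  | cons e l ih =>
    have h1 : endp (e :: l) = vec e + endp l := by simp [endp]
    rw [h1, map_add, hl e (by simp), ih fun e' he' => hl e' (by simp [he'])]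
    simp [add_comm]

theorem lat_step {ν : Measure (ℕ → Step d)} (h : Law ν) (Φ : (Fin d → ℤ) →+ ℤ)
    (l : List (Step d)) (hl : ∀ e ∈ l, Φ (vec e) = 1) (e : Step d) :
    ν (cyl (l ++ [e])) = ν (cyl l) * ν (cyl [e]) := by
  apply h.mul
  rintro x ⟨k, hk, rfl⟩ y ⟨k', hk', rfl⟩ hcon
  have hk0 : k' = 0 := by simpa using hk'
  subst hk0
  have h1 : endp l + endp (([e] : List (Step d)).take 0) = endp l := by simp [endp]
  rw [h1] at hcon
  have h2 := lat_len Φ l hl
  have h3 := lat_len Φ (l.take k) fun e' he' => hl e' (List.mem_of_mem_take he')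
  rw [hcon, h2, List.length_take] at h3
  omega

theorem lat_pos {ν : Measure (ℕ → Step d)} (h : Law ν) (Φ : (Fin d → ℤ) →+ ℤ)
    (l : List (Step d)) : (∀ e ∈ l, Φ (vec e) = 1) → 0 < ν (cyl l) := by
  induction l using List.reverseRecOn with
  | nil =>
    intro _
    have h1 : cyl ([] : List (Step d)) = Set.univ := by
      ext s; simp [cyl, pre]
    rw [h1, h.prob]
    exact zero_lt_one
  | append_singleton l e ih =>
    intro hl
    have hl' : ∀ e' ∈ l, Φ (vec e') = 1 := fun e' he' => hl e' (by simp [he'])
    rw [lat_step h Φ l hl' e]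
    exact ENNReal.mul_pos (ih hl').ne' (h.pos e).ne'

/-- the Lyapunov functional -/
def latPhi (i : Fin d) (z : Fin d → ℤ) : (Fin d → ℤ) →+ ℤ where
  toFun x := x i + ∑ j, (z j).sign * x j
  map_zero' := by simp
  map_add' x y := by
    simp only [Pi.add_apply, mul_add, Finset.sum_add_distrib]
    ring

theorem latPhi_vec (i : Fin d) (z : Fin d → ℤ) (j : Fin d) (σ : Bool) :
    latPhi i z (vec (j, σ)) = (if i = j then (if σ then 1 else -1) else 0)
      + (z j).sign * (if σ then 1 else -1) := by
  have h1 : ∑ k, (z k).sign * vec (j, σ) k = (z j).sign * (if σ then 1 else -1) := by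
    rw [Finset.sum_eq_single j]
    · simp [vec]
    · intro k _ hk
      simp [vec, Pi.single_eq_of_ne hk]
    · intro hj; exact absurd (Finset.mem_univ j) hj
  change vec (j, σ) i + ∑ k, (z k).sign * vec (j, σ) k = _
  rw [h1]
  congr 1
  by_cases hij : i = j
  · subst hij; simp [vec]
  · rw [if_neg hij]; simp [vec, Pi.single_eq_of_ne hij]

/-- the lateral path -/
def latPath (z : Fin d → ℤ) : List (Step d) :=
  (List.finRange d).flatMap fun j => List.replicate (z j).natAbs (j, decide (0 < z j))

theorem lat_endp_append (l m : List (Step d)) : endp (l ++ m) = endp l + endp m := by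
  simp [endp]

theorem latPath_mem {z : Fin d → ℤ} {e : Step d} (he : e ∈ latPath z) :
    z e.1 ≠ 0 ∧ e.2 = decide (0 < z e.1) := by
  unfold latPath at he
  rw [List.mem_flatMap] at he
  obtain ⟨j, _, hj⟩ := he
  rw [List.mem_replicate] at hj
  obtain ⟨h1, h2⟩ := hj
  subst h2
  exact ⟨fun h0 => h1 (by simp [h0]), rfl⟩

theorem latPath_endp (z : Fin d → ℤ) : endp (latPath z) = z := by
  have h1 : ∀ L : List (Fin d), endp (L.flatMap fun j =>
      List.replicate (z j).natAbs (j, decide (0 < z j))) = (L.map fun j => Pi.single j (z j)).sum := by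
    intro L
    induction L with
    | nil => simp [endp]
    | cons j L ih =>
      rw [List.flatMap_cons, lat_endp_append, ih, List.map_cons, List.sum_cons]
      congr 1
      have h2 : endp (List.replicate (z j).natAbs ((j, decide (0 < z j)) : Step d))
          = (z j).natAbs • vec (j, decide (0 < z j)) := by
        simp [endp]
      rw [h2]
      unfold vec
      funext k
      by_cases hk : k = j
      · subst hk
        simp only [Pi.smul_apply, Pi.single_eq_same, decide_eq_true_eq, nsmul_eq_mul]
        split_ifs with h3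
        · have := Int.natAbs_of_nonneg h3.le
          simp; omega
        · have h4 : z k ≤ 0 := not_lt.1 h3
          simp [abs_of_nonpos h4]
      · simp [Pi.single_eq_of_ne hk]
  unfold latPath
  rw [h1]
  funext k
  rw [← List.sum_toFinset _ (List.nodup_finRange d)]
  rw [Finset.sum_apply]
  have h3 : (List.finRange d).toFinset = Finset.univ := by
    ext x; simp
  rw [h3, Finset.sum_eq_single k]
  · simp
  · intro j _ hj
    exact Pi.single_eq_of_ne (Ne.symm hj) _
  · intro hk; exact absurd (Finset.mem_univ k) hk

theorem lat {ν : Measure (ℕ → Step d)} (h : Law ν) (i : Fin d) (z : Fin d → ℤ) (hz : z i = 0) :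
    ∃ ζ : List (Step d), endp ζ = z ∧ (∀ e ∈ ζ, e.1 ≠ i) ∧
      0 < ν (cyl ([(i, true), (i, true)] ++ ζ ++ [(i, false)])) := by
  refine ⟨latPath z, latPath_endp z, ?_, ?_⟩
  · intro e he hcon
    have := (latPath_mem he).1
    rw [hcon] at this
    exact this hz
  · have hl : ∀ e ∈ ([(i, true), (i, true)] : List (Step d)) ++ latPath z,
        latPhi i z (vec e) = 1 := by
      intro e he
      rw [List.mem_append] at he
      rcases he with he | he
      · have he' : e = (i, true) := by simpa using he
        subst he'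
        rw [latPhi_vec]
        simp [hz]
      · obtain ⟨h1, h2⟩ := latPath_mem he
        obtain ⟨j, σ⟩ := e
        have h2' : σ = decide (0 < z j) := h2
        have h1 : z j ≠ 0 := h1
        rw [latPhi_vec, h2']
        have hij : i ≠ j := fun hij => h1 (by rw [← hij]; exact hz)
        rw [if_neg hij]
        rcases lt_or_gt_of_ne h1 with h3 | h3
        · rw [Int.sign_eq_neg_one_of_neg h3]
          simp [not_lt.2 h3.le]
        · rw [Int.sign_eq_one_of_pos h3]
          simp [h3]
    rw [lat_step h (latPhi i z) _ hl]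
    exact ENNReal.mul_pos (lat_pos h (latPhi i z) _ hl).ne' (h.pos _).ne'

end Vale.Agent.Lib.P147
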