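import Vale.Agent.Lib.P147.Defs
import Vale.Agent.Lib.P147.Ext
import Vale.Agent.Lib.P147.Flip

/-! P147: few marks before level `-Λ` is unlikely (the probability is at most `C m / Λ`). -/

open MeasureTheory
open scoped ENNReal

namespace Vale.Agent.Lib.P147

variable {d : ℕ}

theorem MARKS_measurable_pos (n : ℕ) (i : Fin d) :
    Measurable (fun s : ℕ → Step d => pos s n i) := by
  induction n with
  | zero => simp
  | succ n ih =>
    have : (fun s : ℕ → Step d => pos s (n + 1) i) =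
        fun s : ℕ → Step d => pos s n i + vec (s n) i := by
      funext s; rw [pos_succ]; rfl
    rw [this]
    have h2 : Measurable (fun e : Step d => vec e i) := measurable_of_countable _
    exact ih.add (h2.comp (measurable_pi_apply n))

theorem MARKS_measurableSet_mark (i j : Fin d) (μ : ℕ) :
    MeasurableSet {s : ℕ → Step d | Mark i j s μ} := by
  unfold Mark
  have hp : ∀ n, Measurable (fun s : ℕ → Step d => pos s n i) :=
    fun n => MARKS_measurable_pos n i
  refine MeasurableSet.congr (s := ⋃ t : ℕ, ({s : ℕ → Step d | pos s t i = -(μ : ℤ)} ∩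
    ((⋂ k ∈ Set.Iio t, {s : ℕ → Step d | -(μ : ℤ) < pos s k i}) ∩
    ({s : ℕ → Step d | (s t).1 = j} ∩ ({s : ℕ → Step d | s (t + 1) = (i, false)} ∩
      ⋂ k ∈ Set.Ici (t + 2), {s : ℕ → Step d | pos s k i < -(μ : ℤ)}))))) ?_ ?_
  · refine MeasurableSet.iUnion fun t => ?_
    refine MeasurableSet.inter (hp t (measurableSet_singleton _)) ?_
    refine MeasurableSet.inter ?_ ?_
    · exact MeasurableSet.biInter (Set.to_countable _) fun k _ => hp k measurableSet_Ioi
    refine MeasurableSet.inter ?_ ?_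
    · have h2 : Measurable (fun e : Step d => e.1) := measurable_fst
      exact (h2.comp (measurable_pi_apply t)) (measurableSet_singleton _)
    refine MeasurableSet.inter ?_ ?_
    · exact (measurable_pi_apply (t + 1)) (measurableSet_singleton _)
    · exact MeasurableSet.biInter (Set.to_countable _) fun k _ => hp k measurableSet_Iio
  · ext s
    simp only [Set.mem_iUnion, Set.mem_inter_iff, Set.mem_iInter, Set.mem_ofPred_eq,
      Set.mem_Iio, Set.mem_Ici]

open Classical in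
theorem MARKS_nMark_eq (i j : Fin d) (s : ℕ → Step d) (Λ : ℕ) :
    nMark i j s Λ = ∑ μ ∈ Finset.range Λ, if Mark i j s μ then 1 else 0 := by
  unfold nMark
  rw [← Finset.sum_filter, Finset.sum_const, smul_eq_mul, mul_one]
  rw [← Set.ncard_coe_finset]
  congr 1
  ext μ
  simp

theorem MARKS_measurable_nMark (i j : Fin d) (Λ : ℕ) :
    Measurable (fun s : ℕ → Step d => nMark i j s Λ) := by
  classical
  have : (fun s : ℕ → Step d => nMark i j s Λ) =
      fun s => ∑ μ ∈ Finset.range Λ, if Mark i j s μ then 1 else 0 := by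
    funext s; exact MARKS_nMark_eq i j s Λ
  rw [this]
  refine Finset.measurable_fun_sum _ fun μ _ => ?_
  exact Measurable.ite (MARKS_measurableSet_mark i j μ) measurable_const measurable_const

/-- the set of the marks before `Λ` is finite -/
theorem MARKS_finite (i j : Fin d) (s : ℕ → Step d) (Λ : ℕ) :
    {μ : ℕ | μ < Λ ∧ Mark i j s μ}.Finite :=
  (Set.finite_Iio Λ).subset fun _ h => h.1

theorem MARKS_mono (i j : Fin d) (s : ℕ → Step d) {Λ Λ' : ℕ} (h : Λ ≤ Λ') :
    nMark i j s Λ ≤ nMark i j s Λ' := by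
  unfold nMark
  exact Set.ncard_le_ncard (fun μ hμ => ⟨hμ.1.trans_le h, hμ.2⟩) (MARKS_finite i j s Λ')

/-- the bad event -/
def MARKS_A (i j : Fin d) (m Λ : ℕ) : Set (ℕ → Step d) :=
  {s | nMark i j s Λ < m} ∩ Ev (fun l => endp l i ≤ 0)

/-- finite paths ending at their first visit of level `-μ` -/
def MARKS_G (i : Fin d) (μ : ℕ) : Set (List (Step d)) :=
  {γ | endp γ i = -(μ : ℤ) ∧ ∀ k < γ.length, -(μ : ℤ) < endp (γ.take k) i}

/-- `μ` is a mark found by `γ`, with fewer than `m` marks between `μ` and `Λ` -/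
def MARKS_E (i j : Fin d) (m Λ μ : ℕ) (γ : List (Step d)) : Set (ℕ → Step d) :=
  cyl (γ ++ [(j, true), (i, false)]) ∩
    shift (γ ++ [(j, true), (i, false)]).length ⁻¹' (MARKS_A i j m (Λ - μ - 1))

theorem MARKS_measurableSet_A (i j : Fin d) (m Λ : ℕ) :
    MeasurableSet (MARKS_A i j m Λ) :=
  ((MARKS_measurable_nMark i j Λ) measurableSet_Iio).inter (measurableSet_Ev _)

theorem MARKS_measurableSet_E (i j : Fin d) (m Λ μ : ℕ) (γ : List (Step d)) :
    MeasurableSet (MARKS_E i j m Λ μ γ) :=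
  (measurableSet_cyl _).inter (measurable_shift _ (MARKS_measurableSet_A i j m _))

theorem MARKS_take_level {i j : Fin d} (hij : j ≠ i) {μ : ℕ} {γ : List (Step d)}
    (hγ : γ ∈ MARKS_G i μ) {k : ℕ} (hk : k < γ.length + 2) :
    -(μ : ℤ) ≤ endp ((γ ++ [(j, true), (i, false)]).take k) i := by
  obtain ⟨h1, h2⟩ := hγ
  rcases lt_or_ge k γ.length with h | h
  · rw [List.take_append_of_le_length h.le]
    exact (h2 k h).le
  · obtain ⟨r, rfl⟩ := Nat.exists_eq_add_of_le h
    have hr : r < 2 := by omega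
    rw [List.take_length_add_append, endp_append, Pi.add_apply, h1]
    interval_cases r
    · simp [endp]
    · simp [endp, FLIP_vec_ne i j hij]

theorem MARKS_end {i j : Fin d} (hij : j ≠ i) {μ : ℕ} {γ : List (Step d)}
    (hγ : γ ∈ MARKS_G i μ) :
    endp (γ ++ [(j, true), (i, false)]) i = -(μ : ℤ) - 1 := by
  rw [endp_append, Pi.add_apply, hγ.1, FLIP_endp_cons, FLIP_endp_cons, FLIP_endp_nil]
  simp only [Pi.add_apply, FLIP_vec_ne i j hij, FLIP_vec_self, Pi.zero_apply]
  simp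
  ring

theorem MARKS_measure_E {ν : Measure (ℕ → Step d)} (h : Law ν) {i j : Fin d} (hij : j ≠ i)
    (m Λ μ : ℕ) {γ : List (Step d)} (hγ : γ ∈ MARKS_G i μ) :
    ν (MARKS_E i j m Λ μ γ) =
      ν (cyl γ) * ν (cyl [(j, true)]) * ν (cyl [(i, false)]) * ν (MARKS_A i j m (Λ - μ - 1)) := by
  unfold MARKS_E MARKS_A
  have hmeas : MeasurableSet {s : ℕ → Step d | nMark i j s (Λ - μ - 1) < m} :=
    (MARKS_measurable_nMark i j _) measurableSet_Iio
  rw [ext_mul h _ _ ?_ _ hmeas]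
  · congr 1
    have := flip_weight h i j hij γ [] (-(μ : ℤ)) hγ.1 hγ.2 (by simp) true
    rw [List.append_nil] at this
    rw [this]
    have h1 : ν (cyl ([] : List (Step d))) = 1 := by
      have : (cyl ([] : List (Step d))) = Set.univ := by ext s; simp [cyl]
      rw [this, h.prob]
    rw [h1, mul_one]
  · rintro l hl x ⟨k, hk, rfl⟩ y ⟨k', hk', rfl⟩ he
    have h1 := congrFun he i
    rw [Pi.add_apply, MARKS_end hij hγ] at h1
    have h2 := MARKS_take_level (j := j) hij hγ (k := k) (by simpa using hk)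
    have h3 : endp (l.take k') i ≤ 0 := hl k' hk'.le
    omega

theorem MARKS_G_disjoint {i : Fin d} {μ : ℕ} {γ γ' : List (Step d)}
    (hγ : γ ∈ MARKS_G i μ) (hγ' : γ' ∈ MARKS_G i μ) (hne : γ ≠ γ') :
    Disjoint (cyl γ) (cyl γ') := by
  wlog hle : γ.length ≤ γ'.length generalizing γ γ' with H
  · exact (H hγ' hγ hne.symm (not_le.1 hle).le).symm
  rw [Set.disjoint_left]
  intro s h1 h2
  have h3 := pre_of_mem_cyl h2 hle
  rw [(mem_cyl_iff s γ).1 h1] at h3
  rcases hle.lt_or_eq with hlt | heq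
  · have := hγ'.2 _ hlt
    rw [← h3, hγ.1] at this
    exact lt_irrefl _ this
  · rw [heq, List.take_length] at h3
    exact hne h3

theorem MARKS_step_ge (s : ℕ → Step d) (n : ℕ) (i : Fin d) :
    pos s n i - 1 ≤ pos s (n + 1) i := by
  rw [pos_succ, Pi.add_apply]
  have : -1 ≤ vec (s n) i := by
    unfold vec
    by_cases hi : i = (s n).1
    · subst hi
      rw [Pi.single_eq_same]
      split_ifs <;> norm_num
    · rw [Pi.single_eq_of_ne hi]; norm_num
  omega

theorem MARKS_hit {i : Fin d} {c b : ℝ} (hc : 0 < c) (μ : ℕ) :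
    Down (d := d) i c b ⊆ ⋃ γ ∈ MARKS_G i μ, cyl γ := by
  classical
  intro s hs
  have hex : ∃ n, pos s n i ≤ -(μ : ℤ) := by
    obtain ⟨n, hn⟩ := exists_nat_gt ((b + μ) / c)
    refine ⟨n, ?_⟩
    have h1 := (hs n).2
    rw [div_lt_iff₀ hc] at hn
    have h2 : (pos s n i : ℝ) ≤ ((-(μ : ℤ) : ℤ) : ℝ) := by
      push_cast
      nlinarith
    exact_mod_cast h2
  have hmin : ∀ k < Nat.find hex, -(μ : ℤ) < pos s k i := fun k hk =>
    not_le.1 (Nat.find_min hex hk)
  have hsp := Nat.find_spec hex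
  have heq : pos s (Nat.find hex) i = -(μ : ℤ) := by
    rcases Nat.eq_zero_or_eq_succ_pred (Nat.find hex) with h0 | h0
    · rw [h0] at hsp ⊢
      rw [pos_zero, Pi.zero_apply] at hsp ⊢
      omega
    · have h1 := hmin (Nat.find hex).pred (by omega)
      have h2 := MARKS_step_ge s (Nat.find hex).pred i
      rw [← Nat.succ_eq_add_one, ← h0] at h2
      omega
  simp only [Set.mem_iUnion]
  refine ⟨pre s (Nat.find hex), ⟨heq, fun k hk => ?_⟩, pre_mem_cyl s _⟩
  rw [pre_length] at hk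
  rw [pre_take s hk.le]
  exact hmin k hk

/-- `E` is contained in the event that `μ` is a mark with fewer than `m` marks after it. -/
theorem MARKS_E_sub {i j : Fin d} (hij : j ≠ i) {m Λ μ : ℕ} (hμ : μ < Λ)
    {γ : List (Step d)} (hγ : γ ∈ MARKS_G i μ) {s : ℕ → Step d}
    (hs : s ∈ MARKS_E i j m Λ μ γ) :
    Mark i j s μ ∧ {μ' : ℕ | μ < μ' ∧ μ' < Λ ∧ Mark i j s μ'}.ncard < m := by
  obtain ⟨hs1, hs2, hs3⟩ := hs
  set l : List (Step d) := γ ++ [(j, true), (i, false)] with hl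
  have hlen : l.length = γ.length + 2 := by simp [hl]
  have hposT : pos s (γ.length + 2) i = -(μ : ℤ) - 1 := by
    rw [← hlen, pos_of_mem_cyl_length hs1]
    exact MARKS_end hij hγ
  have hafter : ∀ k, pos s (γ.length + 2 + k) i ≤ -(μ : ℤ) - 1 := by
    intro k
    have h1 := pos_add s (γ.length + 2) k
    have h2 := hs3 k
    rw [h1, Pi.add_apply, hposT]
    rw [hlen] at h2
    have h3 : pos (shift (γ.length + 2) s) k i ≤ 0 := h2
    omega
  have hbefore : ∀ k < γ.length + 2, -(μ : ℤ) ≤ pos s k i := by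
    intro k hk
    rw [pos_of_mem_cyl hs1 (by omega)]
    exact MARKS_take_level hij hγ hk
  have hcy := (mem_cyl_append.1 hs1).1
  have hcy2 := (mem_cyl_append.1 hs1).2
  have hstep : s γ.length = (j, true) ∧ s (γ.length + 1) = (i, false) := by
    rw [mem_cyl_iff] at hcy2
    simp [pre, shift, List.range_succ] at hcy2
    refine ⟨hcy2.1, ?_⟩
    rw [add_comm]
    exact hcy2.2
  refine ⟨⟨γ.length, ?_, ?_, ?_, hstep.2, ?_⟩, ?_⟩
  · rw [pos_of_mem_cyl_length hcy]; exact hγ.1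
  · intro k hk
    rw [pos_of_mem_cyl hcy hk.le]
    exact hγ.2 k hk
  · rw [hstep.1]
  · intro k hk
    obtain ⟨r, rfl⟩ := Nat.exists_eq_add_of_le hk
    have := hafter r
    omega
  · refine lt_of_le_of_lt ?_ hs2
    unfold nMark
    have hinj : Set.InjOn (fun μ' : ℕ => μ' - μ - 1)
        {μ' : ℕ | μ < μ' ∧ μ' < Λ ∧ Mark i j s μ'} := by
      intro a ha b hb hab
      have h1 := ha.1
      have h2 := hb.1
      simp only at hab
      omega
    rw [← hinj.ncard_image]
    refine Set.ncard_le_ncard ?_ (MARKS_finite i j _ _)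
    rintro _ ⟨μ', ⟨h1, h2, t, ht1, ht2, ht3, ht4, ht5⟩, rfl⟩
    refine ⟨by simp only; omega, ?_⟩
    have htT : γ.length + 2 ≤ t := by
      by_contra hcon
      have := hbefore t (by omega)
      omega
    obtain ⟨t', rfl⟩ := Nat.exists_eq_add_of_le htT
    have hps : ∀ k, pos (shift l.length s) k i = pos s (γ.length + 2 + k) i + μ + 1 := by
      intro k
      rw [hlen, pos_add s (γ.length + 2) k, Pi.add_apply, hposT]
      ring
    refine ⟨t', ?_, ?_, ?_, ?_, ?_⟩
    · rw [hps, ht1]; push_cast; omega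
    · intro k hk
      have := ht2 (γ.length + 2 + k) (by omega)
      rw [hps]
      push_cast
      omega
    · rw [shift, hlen, add_comm]; exact ht3
    · rw [shift, hlen]
      rw [show t' + 1 + (γ.length + 2) = γ.length + 2 + t' + 1 by ring]
      exact ht4
    · intro k hk
      have := ht5 (γ.length + 2 + k) (by omega)
      rw [hps]
      push_cast
      omega

theorem MARKS_card {P : ℕ → Prop} {m Λ : ℕ} (F : Finset ℕ)
    (hF : ∀ μ ∈ F, μ < Λ ∧ P μ ∧ {μ' : ℕ | μ < μ' ∧ μ' < Λ ∧ P μ'}.ncard < m) :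
    F.card ≤ m := by
  classical
  rcases F.eq_empty_or_nonempty with rfl | hne
  · simp
  set μ0 := F.min' hne
  have h0 := F.min'_mem hne
  obtain ⟨h1, h2, h3⟩ := hF _ h0
  have hfin : {μ' : ℕ | μ0 < μ' ∧ μ' < Λ ∧ P μ'}.Finite :=
    (Set.finite_Iio Λ).subset fun _ h => h.2.1
  have h4 : ((F.erase μ0 : Finset ℕ) : Set ℕ) ⊆ {μ' : ℕ | μ0 < μ' ∧ μ' < Λ ∧ P μ'} := by
    intro μ' hμ'
    rw [Finset.mem_coe, Finset.mem_erase] at hμ'
    have := hF _ hμ'.2
    exact ⟨lt_of_le_of_ne (F.min'_le _ hμ'.2) hμ'.1.symm, this.1, this.2.1⟩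
  have h5 := Set.ncard_le_ncard h4 hfin
  rw [Set.ncard_coe_finset, Finset.card_erase_of_mem h0] at h5
  have h6 : {μ' : ℕ | μ0 < μ' ∧ μ' < Λ ∧ P μ'}.ncard < m := h3
  omega

/-- the events `E_μ` -/
def MARKS_U (i j : Fin d) (m Λ μ : ℕ) : Set (ℕ → Step d) :=
  ⋃ γ ∈ MARKS_G i μ, MARKS_E i j m Λ μ γ

theorem MARKS_measurableSet_U (i j : Fin d) (m Λ μ : ℕ) :
    MeasurableSet (MARKS_U i j m Λ μ) :=
  MeasurableSet.biUnion (Set.to_countable _) fun γ _ => MARKS_measurableSet_E i j m Λ μ γ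

theorem MARKS_measure_U {ν : Measure (ℕ → Step d)} (h : Law ν) {i j : Fin d} (hij : j ≠ i)
    {c b : ℝ} (hc : 0 < c) (m Λ μ : ℕ) :
    ν (Down i c b) * ν (cyl [(j, true)]) * ν (cyl [(i, false)]) * ν (MARKS_A i j m Λ) ≤
      ν (MARKS_U i j m Λ μ) := by
  unfold MARKS_U
  rw [measure_biUnion (Set.to_countable _) ?_ fun γ _ => MARKS_measurableSet_E i j m Λ μ γ]
  · have h1 : ν (Down i c b) ≤ ∑' γ : MARKS_G i μ, ν (cyl (γ : List (Step d))) := by
      refine (measure_mono (MARKS_hit hc μ)).trans ?_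
      exact measure_biUnion_le ν (Set.to_countable _) _
    have h2 : MARKS_A (d := d) i j m Λ ⊆ MARKS_A i j m (Λ - μ - 1) := by
      rintro s ⟨hs1, hs2⟩
      exact ⟨lt_of_le_of_lt (MARKS_mono i j s (by omega)) hs1, hs2⟩
    calc ν (Down i c b) * ν (cyl [(j, true)]) * ν (cyl [(i, false)]) * ν (MARKS_A i j m Λ)
        ≤ (∑' γ : MARKS_G i μ, ν (cyl (γ : List (Step d)))) * ν (cyl [(j, true)]) *
          ν (cyl [(i, false)]) * ν (MARKS_A i j m (Λ - μ - 1)) := by
          gcongr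
      _ = ∑' γ : MARKS_G i μ, ν (MARKS_E i j m Λ μ (γ : List (Step d))) := by
          rw [← ENNReal.tsum_mul_right, ← ENNReal.tsum_mul_right, ← ENNReal.tsum_mul_right]
          refine tsum_congr fun γ => ?_
          rw [MARKS_measure_E h hij m Λ μ γ.2]
  · intro γ hγ γ' hγ' hne
    refine (MARKS_G_disjoint hγ hγ' hne).mono ?_ ?_
    · exact fun s hs => (mem_cyl_append.1 hs.1).1
    · exact fun s hs => (mem_cyl_append.1 hs.1).1

theorem MARKS_sum {ν : Measure (ℕ → Step d)} (h : Law ν) {i j : Fin d} (hij : j ≠ i)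
    (m Λ : ℕ) :
    ∑ μ ∈ Finset.range Λ, ν (MARKS_U i j m Λ μ) ≤ m := by
  classical
  have := h.isProb
  have h1 : ∀ μ ∈ Finset.range Λ, ν (MARKS_U i j m Λ μ) =
      ∫⁻ s, (MARKS_U i j m Λ μ).indicator (fun _ => (1 : ℝ≥0∞)) s ∂ν := by
    intro μ _
    rw [lintegral_indicator_const (MARKS_measurableSet_U i j m Λ μ), one_mul]
  rw [Finset.sum_congr rfl h1, ← lintegral_finsetSum _ fun μ _ =>
    (measurable_const.indicator (MARKS_measurableSet_U i j m Λ μ))]
  calc ∫⁻ s, ∑ μ ∈ Finset.range Λ, (MARKS_U i j m Λ μ).indicator (fun _ => (1 : ℝ≥0∞)) s ∂ν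
      ≤ ∫⁻ _, (m : ℝ≥0∞) ∂ν := by
        refine lintegral_mono fun s => ?_
        simp only [Set.indicator_apply]
        rw [← Finset.sum_filter, Finset.sum_const, nsmul_eq_mul, mul_one]
        have := MARKS_card (P := fun μ => Mark i j s μ) (m := m) (Λ := Λ)
          ((Finset.range Λ).filter fun μ => s ∈ MARKS_U i j m Λ μ) (by
            intro μ hμ
            rw [Finset.mem_filter, Finset.mem_range] at hμ
            obtain ⟨hμ1, hμ2⟩ := hμ
            unfold MARKS_U at hμ2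
            simp only [Set.mem_iUnion] at hμ2
            obtain ⟨γ, hγ, hs⟩ := hμ2
            have := MARKS_E_sub hij hμ1 hγ hs
            exact ⟨hμ1, this.1, this.2⟩)
        exact_mod_cast this
    _ = m := by
        rw [lintegral_const, measure_univ, mul_one]

theorem marks {ν : Measure (ℕ → Step d)} (h : Law ν) (i j : Fin d) (hij : j ≠ i)
    {c b : ℝ} (hc : 0 < c) (hD : 0 < ν (Down i c b)) :
    ∃ C : ℝ, 0 ≤ C ∧ ∀ m Λ : ℕ, 0 < Λ →
      ν {s | (∀ n, pos s n i ≤ 0) ∧ nMark i j s Λ < m} ≤ ENNReal.ofReal (C * m / Λ) := by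
  set K : ℝ≥0∞ := ν (Down i c b) * ν (cyl [(j, true)]) * ν (cyl [(i, false)]) with hK
  have hK0 : K ≠ 0 := by
    rw [hK]
    exact mul_ne_zero (mul_ne_zero hD.ne' (h.pos _).ne') (h.pos _).ne'
  have hKt : K ≠ ⊤ := by
    rw [hK]
    exact ENNReal.mul_ne_top (ENNReal.mul_ne_top (h.ne_top _) (h.ne_top _)) (h.ne_top _)
  have hKpos : 0 < K.toReal := ENNReal.toReal_pos hK0 hKt
  refine ⟨K.toReal⁻¹, inv_nonneg.2 hKpos.le, fun m Λ hΛ => ?_⟩
  have hset : {s : ℕ → Step d | (∀ n, pos s n i ≤ 0) ∧ nMark i j s Λ < m} =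
      MARKS_A i j m Λ := by
    ext s
    constructor
    · rintro ⟨h1, h2⟩
      exact ⟨h2, h1⟩
    · rintro ⟨h1, h2⟩
      exact ⟨h2, h1⟩
  rw [hset]
  have h1 : (Λ : ℝ≥0∞) * (K * ν (MARKS_A i j m Λ)) ≤ m := by
    refine le_trans ?_ (MARKS_sum h hij m Λ)
    have : (Λ : ℝ≥0∞) * (K * ν (MARKS_A i j m Λ)) =
        ∑ _μ ∈ Finset.range Λ, (K * ν (MARKS_A i j m Λ)) := by
      rw [Finset.sum_const, Finset.card_range, nsmul_eq_mul]
    rw [this]
    exact Finset.sum_le_sum fun μ _ => MARKS_measure_U h hij hc m Λ μ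
  have h2 := ENNReal.toReal_mono (ENNReal.natCast_ne_top m) h1
  rw [ENNReal.toReal_mul, ENNReal.toReal_mul, ENNReal.toReal_natCast,
    ENNReal.toReal_natCast] at h2
  have hΛ' : (0 : ℝ) < Λ := by exact_mod_cast hΛ
  rw [ENNReal.le_ofReal_iff_toReal_le (h.ne_top _) (by positivity)]
  rw [le_div_iff₀ hΛ', inv_mul_eq_div, le_div_iff₀ hKpos]
  calc (ν (MARKS_A i j m Λ)).toReal * Λ * K.toReal
      = Λ * (K.toReal * (ν (MARKS_A i j m Λ)).toReal) := by ring
    _ ≤ m := h2

end Vale.Agent.Lib.P147
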