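import Vale.Agent.Lib.P147.Start
import Vale.Agent.Lib.P147.SpreadFin

/-! P147: spreading of the down-walks in three lateral directions (limit `N → ∞` of the finite
horizon estimate). -/

open MeasureTheory ProbabilityTheory Filter
open scoped ENNReal

namespace Vale.Agent.Lib.P147

variable {d : ℕ}

theorem SPREAD_markH {i j : Fin d} {s : ℕ → Step d} {μ : ℕ} (hm : Mark i j s μ) :
    ∃ T, ∀ N ≥ T, MarkH i j (pre s N) μ := by
  obtain ⟨t, h1, h2, h3, h4, h5⟩ := hm
  refine ⟨t + 2, fun N hN => ⟨t, ?_, ?_, ?_, ⟨(s t).2, ?_⟩, ?_, ?_⟩⟩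
  · rw [pre_length]; exact hN
  · rw [pre_take s (by omega)]; exact h1
  · intro k hk
    rw [pre_take s (by omega)]; exact h2 k hk
  · rw [List.getElem?_eq_getElem (by rw [pre_length]; omega), pre_getElem, ← h3]
  · rw [List.getElem?_eq_getElem (by rw [pre_length]; omega), pre_getElem, h4]
  · intro k hk hkN
    rw [pre_length] at hkN
    rw [pre_take s hkN]; exact h5 k hk

theorem SPREAD_nMarkH (i j : Fin d) (s : ℕ → Step d) (Λ : ℕ) :
    ∃ T, ∀ N ≥ T, nMark i j s Λ ≤ nMarkH i j (pre s N) Λ := by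
  classical
  choose! T hT using fun (μ : ℕ) (hm : Mark i j s μ) => SPREAD_markH hm
  refine ⟨(Finset.range Λ).sup T, fun N hN => ?_⟩
  refine Set.ncard_le_ncard ?_ ((Set.finite_Iio Λ).subset fun μ hμ => hμ.1)
  rintro μ ⟨hμ, hm⟩
  exact ⟨hμ, hT μ hm N (le_trans (Finset.le_sup (Finset.mem_range.2 hμ)) hN)⟩

open Classical in
theorem SPREAD_measure (ν : Measure (ℕ → Step d)) (P : List (Step d) → Prop) (N : ℕ) :
    ν {s | P (pre s N)} = ∑ f : Fin N → Step d, if P (List.ofFn f)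
      then ν (cyl (List.ofFn f)) else 0 := by
  have hset : {s : ℕ → Step d | P (pre s N)} =
      ⋃ f ∈ (Finset.univ.filter fun f : Fin N → Step d => P (List.ofFn f)), cyl (List.ofFn f) := by
    ext s
    simp only [Set.mem_ofPred_eq, Finset.mem_filter, Finset.mem_univ, true_and, Set.mem_iUnion,
      exists_prop]
    constructor
    · intro hs
      have hof : List.ofFn (fun k : Fin N => s k) = pre s N := by
        apply List.ext_getElem
        · simp
        · intro k h1 h2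
          rw [List.getElem_ofFn, pre_getElem]
      refine ⟨fun k => s k, ?_, ?_⟩
      · rw [hof]; exact hs
      · rw [hof]; exact pre_mem_cyl s N
    · rintro ⟨f, hf, hs⟩
      have : pre s N = List.ofFn f := by
        have := (mem_cyl_iff s _).1 hs
        rwa [List.length_ofFn] at this
      rw [this]; exact hf
  rw [hset, measure_biUnion_finset, Finset.sum_filter]
  · intro f _ g _ hfg
    refine cyl_disjoint (by simp) fun hEq => hfg (List.ofFn_injective hEq)
  · intro f _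
    exact measurableSet_cyl _

/-- the limit event of the right-hand side is closed -/
def SPREAD_Q (i : Fin d) (c b : ℝ) (n : ℕ) (u : ℤ) (m : List (Step d)) : Prop :=
  DownQ i c b m ∧ (m.length = n → endp m i = u)

theorem SPREAD_Ev (i : Fin d) (c b : ℝ) (n : ℕ) (u : ℤ) :
    {s | s ∈ Down i c b ∧ pos s n i = u} = Ev (SPREAD_Q i c b n u) := by
  ext s
  constructor
  · rintro ⟨h1, h2⟩ k
    refine ⟨?_, fun hk => ?_⟩
    · rw [Down_eq] at h1
      exact h1 k
    · rw [pre_length] at hk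
      rw [hk]; exact h2
  · intro hs
    refine ⟨?_, ?_⟩
    · rw [Down_eq]
      exact fun k => (hs k).1
    · exact (hs n).2 (pre_length s n)

theorem SPREAD_EvN (i : Fin d) (c b : ℝ) (n : ℕ) (u : ℤ) {N : ℕ} (hN : n ≤ N) :
    {s | DownH i c b (pre s N) ∧ endp ((pre s N).take n) i = u} = EvN (SPREAD_Q i c b n u) N := by
  ext s
  constructor
  · rintro ⟨h1, h2⟩ k hk
    have h1k := h1 k (by rw [pre_length]; exact hk)
    rw [pre_take s hk] at h1k
    rw [pre_take s hN] at h2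
    refine ⟨⟨h1k.1, ?_⟩, fun hkn => ?_⟩
    · rw [pre_length]; exact h1k.2
    · rw [pre_length] at hkn
      rw [hkn]; exact h2
  · intro hs
    refine ⟨fun k hk => ?_, ?_⟩
    · rw [pre_length] at hk
      rw [pre_take s hk]
      have := (hs k hk).1
      rw [DownQ, pre_length] at this
      exact this
    · rw [pre_take s hN]
      exact (hs n hN).2 (pre_length s n)

theorem spread_of {ν : Measure (ℕ → Step d)} (h : Law ν) (i : Fin d) (j : Fin 3 → Fin d)
    {c b : ℝ} {n m Λ : ℕ} {u : Fin d → ℤ} {K : ℝ≥0∞} (hK : K ≠ ⊤)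
    (hfin : ∀ N, n ≤ N →
      ν {s | DownH i c b (pre s N) ∧ (∀ a, m ≤ nMarkH i (j a) (pre s N) Λ) ∧
        endp ((pre s N).take n) = u} ≤
      K * ν {s | DownH i c b (pre s N) ∧ endp ((pre s N).take n) i = u i}) :
    ν {s | s ∈ Down i c b ∧ (∀ a, m ≤ nMark i (j a) s Λ) ∧ pos s n = u} ≤
      K * ν {s | s ∈ Down i c b ∧ pos s n i = u i} := by
  set S : Set (ℕ → Step d) :=
    {s | s ∈ Down i c b ∧ (∀ a, m ≤ nMark i (j a) s Λ) ∧ pos s n = u} with hS
  set A : ℕ → Set (ℕ → Step d) := fun N =>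
    {s | DownH i c b (pre s N) ∧ (∀ a, m ≤ nMarkH i (j a) (pre s N) Λ) ∧
        endp ((pre s N).take n) = u} with hA
  set B : ℕ → Set (ℕ → Step d) := fun N => {s | ∀ N' ≥ N, s ∈ A N'} with hB
  have hBmono : Monotone B := fun a b hab s hs N' hN' => hs N' (hab.trans hN')
  have hsub : S ⊆ ⋃ N, B N := by
    rintro s ⟨h1, h2, h3⟩
    choose T hT using fun a => SPREAD_nMarkH i (j a) s Λ
    refine Set.mem_iUnion.2 ⟨max n (Finset.univ.sup T), fun N' hN' => ⟨?_, fun a => ?_, ?_⟩⟩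
    · intro k hk
      rw [pre_length] at hk
      rw [pre_take s hk]
      exact h1 k
    · refine (h2 a).trans (hT a N' ?_)
      exact (Finset.le_sup (Finset.mem_univ a)).trans ((le_max_right _ _).trans hN')
    · rw [pre_take s ((le_max_left _ _).trans hN')]
      exact h3
  have hBle : ∀ N, ν (B N) ≤ K * ν (Ev (SPREAD_Q i c b n (u i))) := by
    intro N
    have htend := ENNReal.Tendsto.const_mul (a := K) (tendsto_EvN h (SPREAD_Q i c b n (u i)))
      (Or.inr hK)
    refine ge_of_tendsto htend ?_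
    filter_upwards [eventually_ge_atTop (max n N)] with N' hN'
    have hn : n ≤ N' := (le_max_left _ _).trans hN'
    have hBA : B N ⊆ A N' := fun s hs => hs N' ((le_max_right _ _).trans hN')
    refine (measure_mono hBA).trans ((hfin N' hn).trans ?_)
    rw [SPREAD_EvN i c b n (u i) hn]
  calc ν S ≤ ν (⋃ N, B N) := measure_mono hsub
    _ = ⨆ N, ν (B N) := hBmono.measure_iUnion
    _ ≤ K * ν (Ev (SPREAD_Q i c b n (u i))) := iSup_le hBle
    _ = _ := by rw [SPREAD_Ev]

open Classical in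
/-- the finite horizon estimate `spread_fin` gives the estimate for infinite walks -/
theorem spread_of_fin {ν : Measure (ℕ → Step d)} (h : Law ν) (i : Fin d) (j : Fin 3 → Fin d)
    (hfin : ∃ C : ℝ, 0 ≤ C ∧ ∀ (c b : ℝ) (N n m Λ : ℕ) (u : Fin d → ℤ), n ≤ N → 0 < m →
      (Λ : ℤ) ≤ -u i →
      (∑ f : Fin N → Step d, if DownH i c b (List.ofFn f) ∧
          (∀ a, m ≤ nMarkH i (j a) (List.ofFn f) Λ) ∧ endp ((List.ofFn f).take n) = u
          then ν (cyl (List.ofFn f)) else 0)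
      ≤ ENNReal.ofReal (C / (m : ℝ) ^ ((3 : ℝ) / 2)) *
        (∑ f : Fin N → Step d, if DownH i c b (List.ofFn f) ∧
          endp ((List.ofFn f).take n) i = u i then ν (cyl (List.ofFn f)) else 0)) :
    ∃ C : ℝ, 0 ≤ C ∧ ∀ (c b : ℝ) (n m Λ : ℕ) (u : Fin d → ℤ), 0 < c → 0 < m →
      (Λ : ℤ) ≤ -u i →
      ν {s | s ∈ Down i c b ∧ (∀ a, m ≤ nMark i (j a) s Λ) ∧ pos s n = u} ≤
        ENNReal.ofReal (C / (m : ℝ) ^ ((3 : ℝ) / 2)) *
          ν {s | s ∈ Down i c b ∧ pos s n i = u i} := by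
  obtain ⟨C, hC, hbound⟩ := hfin
  refine ⟨C, hC, fun c b n m Λ u _ hm hΛ => ?_⟩
  refine spread_of h i j ENNReal.ofReal_ne_top fun N hN => ?_
  have h1 := SPREAD_measure ν (fun l => DownH i c b l ∧ (∀ a, m ≤ nMarkH i (j a) l Λ) ∧
    endp (l.take n) = u) N
  have h2 := SPREAD_measure ν (fun l => DownH i c b l ∧ endp (l.take n) i = u i) N
  rw [h1, h2]
  convert hbound c b N n m Λ u hN hm hΛ

theorem spread {ν : Measure (ℕ → Step d)} (h : Law ν) (i : Fin d) (j : Fin 3 → Fin d)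
    (hij : ∀ a, j a ≠ i) (hj : Function.Injective j) :
    ∃ C : ℝ, 0 ≤ C ∧ ∀ (c b : ℝ) (n m Λ : ℕ) (u : Fin d → ℤ), 0 < c → 0 < m →
      (Λ : ℤ) ≤ -u i →
      ν {s | s ∈ Down i c b ∧ (∀ a, m ≤ nMark i (j a) s Λ) ∧ pos s n = u} ≤
        ENNReal.ofReal (C / (m : ℝ) ^ ((3 : ℝ) / 2)) *
          ν {s | s ∈ Down i c b ∧ pos s n i = u i} :=
  spread_of_fin h i j (spread_fin h i j hij hj)

end Vale.Agent.Lib.P147
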