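import Vale.Agent.Lib.P147.Turn

/-! P147: positive probability for uniform linear escape. -/

open MeasureTheory ProbabilityTheory Filter
open scoped ENNReal

namespace Vale.Agent.Lib.P147

variable {d : ℕ}

theorem abs_pos_le (s : ℕ → Step d) (n : ℕ) (i : Fin d) : |pos s n i| ≤ n := by
  induction n with
  | zero => simp
  | succ n ih =>
    rw [pos_succ, Pi.add_apply]
    have h1 := vec_le_one (s n) i
    have h2 := neg_one_le_vec (s n) i
    rw [abs_le] at ih ⊢
    push_cast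
    constructor <;> linarith [ih.1, ih.2]

theorem start_up {ν : Measure (ℕ → Step d)} (h : Law ν) (i : Fin d)
    (hA : 0 < ν {s | ∃ c : ℝ, 0 < c ∧ ∀ᶠ n : ℕ in atTop, c * n ≤ (pos s n i : ℝ)}) :
    ∃ c b : ℝ, 0 < c ∧ 0 ≤ b ∧ 0 < ν (Up i c b) := by
  by_contra hcon
  push Not at hcon
  have hsub : {s : ℕ → Step d | ∃ c : ℝ, 0 < c ∧ ∀ᶠ n : ℕ in atTop, c * n ≤ (pos s n i : ℝ)} ⊆
      ⋃ k : ℕ, ⋃ M : ℕ, Up i (1 / ((k : ℝ) + 1)) (2 * M) := by
    rintro s ⟨c, hc, hev⟩
    obtain ⟨M, hM⟩ := eventually_atTop.1 hev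
    obtain ⟨k, hk⟩ := exists_nat_one_div_lt hc
    refine Set.mem_iUnion.2 ⟨k, Set.mem_iUnion.2 ⟨M, fun n => ?_⟩⟩
    have hk1 : 1 / ((k : ℝ) + 1) ≤ 1 := by
      rw [div_le_one (by positivity)]; linarith [(Nat.cast_nonneg k : (0 : ℝ) ≤ k)]
    rcases le_total M n with hn | hn
    · have := hM n hn
      have h2 : 1 / ((k : ℝ) + 1) * n ≤ c * n := by gcongr
      have h3 : (0 : ℝ) ≤ 2 * M := by positivity
      linarith
    · have h1 := abs_pos_le s n i
      rw [abs_le] at h1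
      have h2 : -(n : ℝ) ≤ (pos s n i : ℝ) := by exact_mod_cast h1.1
      have h3 : 1 / ((k : ℝ) + 1) * n ≤ 1 * n := by gcongr
      have h4 : (n : ℝ) ≤ M := by exact_mod_cast hn
      linarith
  have hzero : ν (⋃ k : ℕ, ⋃ M : ℕ, Up i (1 / ((k : ℝ) + 1)) (2 * M)) = 0 := by
    rw [measure_iUnion_null_iff]
    intro k
    rw [measure_iUnion_null_iff]
    intro M
    have := hcon (1 / ((k : ℝ) + 1)) (2 * M) (by positivity) (by positivity)
    exact le_antisymm this zero_le
  exact absurd (measure_mono_null hsub hzero) hA.ne'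

/-- the events `Down` are closed events -/
def DownQ (i : Fin d) (c b : ℝ) (m : List (Step d)) : Prop :=
  endp m i ≤ 0 ∧ (endp m i : ℝ) ≤ b - c * m.length

theorem Down_eq (i : Fin d) (c b : ℝ) : Down i c b = Ev (DownQ i c b) := by
  ext s
  simp only [Down, Ev, DownQ, pos, pre_length]

theorem start_down {ν : Measure (ℕ → Step d)} (h : Law ν) (i : Fin d)
    (hA : 0 < ν {s | ∃ c : ℝ, 0 < c ∧ ∀ᶠ n : ℕ in atTop, (pos s n i : ℝ) ≤ -(c * n)}) :
    ∃ c b : ℝ, 0 < c ∧ 0 ≤ b ∧ 0 < ν (Down i c b) := by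
  by_contra hcon
  push Not at hcon
  have hsub : {s : ℕ → Step d | ∃ c : ℝ, 0 < c ∧ ∀ᶠ n : ℕ in atTop, (pos s n i : ℝ) ≤ -(c * n)} ⊆
      ⋃ k : ℕ, ⋃ M : ℕ, ⋃ γ : List (Step d),
        cyl γ ∩ shift γ.length ⁻¹' (Down i (1 / ((k : ℝ) + 1)) M) := by
    rintro s ⟨c, hc, hev⟩
    obtain ⟨M, hM⟩ := eventually_atTop.1 hev
    obtain ⟨k, hk⟩ := exists_nat_one_div_lt hc
    have hk1 : 1 / ((k : ℝ) + 1) ≤ 1 := by
      rw [div_le_one (by positivity)]; linarith [(Nat.cast_nonneg k : (0 : ℝ) ≤ k)]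
    -- a time of maximal level
    obtain ⟨t, ht⟩ : ∃ t, ∀ n, pos s n i ≤ pos s t i := by
      obtain ⟨t, -, ht⟩ := Finset.exists_max_image (Finset.range (M + 1)) (fun n => pos s n i)
        ⟨0, by simp⟩
      refine ⟨t, fun n => ?_⟩
      rcases le_or_gt n M with hn | hn
      · exact ht n (Finset.mem_range.2 (by omega))
      · have h1 := hM n hn.le
        have h2 : pos s n i ≤ 0 := by
          have : (pos s n i : ℝ) ≤ 0 := h1.trans (by
            have : 0 ≤ c * (n : ℝ) := by positivity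
            linarith)
          exact_mod_cast this
        have h3 := ht 0 (by simp)
        simp only [pos_zero, Pi.zero_apply] at h3
        linarith
    obtain ⟨M', hM'⟩ := exists_nat_gt ((M : ℝ) + t + |(pos s t i : ℝ)|)
    refine Set.mem_iUnion.2 ⟨k, Set.mem_iUnion.2 ⟨M', Set.mem_iUnion.2 ⟨pre s t, pre_mem_cyl s t, ?_⟩⟩⟩
    rw [Set.mem_preimage, pre_length]
    intro n
    have hadd : pos s (t + n) i = pos s t i + pos (shift t s) n i := by
      rw [pos_add, Pi.add_apply]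
    have hle : pos (shift t s) n i ≤ 0 := by linarith [ht (t + n)]
    refine ⟨hle, ?_⟩
    have habs := neg_abs_le (pos s t i : ℝ)
    have habs2 := abs_nonneg (pos s t i : ℝ)
    rcases le_total M (t + n) with hn | hn
    · have h1 := hM (t + n) hn
      rw [hadd] at h1
      push_cast at h1
      have h2 : 1 / ((k : ℝ) + 1) * n ≤ c * n := by gcongr
      have h3 : 0 ≤ c * (t : ℝ) := by positivity
      have h4 : (0 : ℝ) ≤ M := by positivity
      have h5 : (0 : ℝ) ≤ t := by positivity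
      nlinarith
    · have h1 : (n : ℝ) ≤ M := by
        have : n ≤ M := by omega
        exact_mod_cast this
      have h2 : (pos (shift t s) n i : ℝ) ≤ 0 := by exact_mod_cast hle
      have h3 : 1 / ((k : ℝ) + 1) * n ≤ 1 * n := by gcongr
      have h5 : (0 : ℝ) ≤ t := by positivity
      linarith
  have hzero : ν (⋃ k : ℕ, ⋃ M : ℕ, ⋃ γ : List (Step d),
        cyl γ ∩ shift γ.length ⁻¹' (Down i (1 / ((k : ℝ) + 1)) M)) = 0 := by
    rw [measure_iUnion_null_iff]
    intro k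
    rw [measure_iUnion_null_iff]
    intro M
    rw [measure_iUnion_null_iff]
    intro γ
    have h1 := hcon (1 / ((k : ℝ) + 1)) M (by positivity) (by positivity)
    rw [Down_eq] at h1 ⊢
    exact le_antisymm ((ext_le h γ _).trans h1) zero_le
  exact absurd (measure_mono_null hsub hzero) hA.ne'

end Vale.Agent.Lib.P147
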