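import Vale.Agent.Lib.P147.Ext

/-! P147: the turn inequality. -/

open MeasureTheory ProbabilityTheory Filter
open scoped ENNReal

namespace Vale.Agent.Lib.P147

variable {d : ℕ}

theorem vec_apply_ne {i : Fin d} {e : Step d} (h : e.1 ≠ i) : vec e i = 0 := by
  simp [vec, h.symm]

@[simp] theorem vec_up (i : Fin d) : vec (i, true) i = 1 := by simp [vec]

@[simp] theorem vec_down (i : Fin d) : vec (i, false) i = -1 := by simp [vec]

theorem vec_le_one (e : Step d) (i : Fin d) : vec e i ≤ 1 := by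
  unfold vec
  rw [Pi.single_apply]
  split_ifs <;> norm_num

theorem neg_one_le_vec (e : Step d) (i : Fin d) : -1 ≤ vec e i := by
  unfold vec
  rw [Pi.single_apply]
  split_ifs <;> norm_num

theorem endp_lateral {i : Fin d} {ζ : List (Step d)} (h : ∀ e ∈ ζ, e.1 ≠ i) : endp ζ i = 0 := by
  induction ζ with
  | nil => simp
  | cons e ζ ih =>
    have : endp (e :: ζ) = vec e + endp ζ := by simp [endp]
    rw [this, Pi.add_apply, vec_apply_ne (h e (by simp)), ih fun e' he' => h e' (by simp [he'])]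
    simp

/-- the connecting path -/
def turnC (i : Fin d) (ζ : List (Step d)) : List (Step d) :=
  [(i, true), (i, true)] ++ ζ ++ [(i, false)]

theorem turnC_length (i : Fin d) (ζ : List (Step d)) : (turnC i ζ).length = ζ.length + 3 := by
  simp [turnC]

theorem endp_turnC (i : Fin d) (ζ : List (Step d)) :
    endp (turnC i ζ) = vec (i, true) + endp ζ := by
  rw [turnC, endp_append, endp_append]
  simp only [endp, List.map_cons, List.map_nil, List.sum_cons, List.sum_nil]
  have : vec (i, false) = - vec (i, true) := by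
    unfold vec
    rw [← Pi.single_neg]
    simp
  rw [this]; abel

/-- departure sites of the connecting path: `0`, `e_i`, and sites of level `2` -/
theorem take_turnC {i : Fin d} {ζ : List (Step d)} (hlat : ∀ e ∈ ζ, e.1 ≠ i) {k : ℕ}
    (hk : k < (turnC i ζ).length) :
    (k = 0 ∧ endp ((turnC i ζ).take k) = 0) ∨ (k = 1 ∧ endp ((turnC i ζ).take k) = vec (i, true)) ∨
      (2 ≤ k ∧ endp ((turnC i ζ).take k) i = 2) := by
  rcases k with _ | _ | k
  · left; simp
  · right; left; refine ⟨rfl, ?_⟩; simp [turnC, endp]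
  · right; right
    refine ⟨by omega, ?_⟩
    rw [turnC_length] at hk
    have : (turnC i ζ).take (k + 1 + 1) = [(i, true), (i, true)] ++ ζ.take k := by
      simp only [turnC, List.cons_append, List.nil_append, List.take_succ_cons]
      rw [List.take_append_of_le_length (by omega)]
    rw [this, endp_append, Pi.add_apply,
      endp_lateral (i := i) (ζ := ζ.take k) fun e he => hlat e (List.mem_of_mem_take he)]
    simp [endp]

theorem sites_append {l m : List (Step d)} {x : Fin d → ℤ} (hx : x ∈ Sites (l ++ m)) :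
    x ∈ Sites l ∨ ∃ y ∈ Sites m, x = endp l + y := by
  obtain ⟨k, hk, rfl⟩ := hx
  rcases lt_or_ge k l.length with h | h
  · left
    exact ⟨k, h, by rw [List.take_append_of_le_length h.le]⟩
  · right
    obtain ⟨r, rfl⟩ := Nat.exists_eq_add_of_le h
    rw [List.length_append] at hk
    refine ⟨endp (m.take r), ⟨r, by omega, rfl⟩, ?_⟩
    rw [List.take_length_add_append, endp_append]

theorem turn_mul1 {ν : Measure (ℕ → Step d)} (h : Law ν) {i : Fin d} {L : ℤ}
    {γ : List (Step d)} (hγ : Hit i L γ) {ζ : List (Step d)} (hlat : ∀ e ∈ ζ, e.1 ≠ i) :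
    ν (cyl (γ ++ turnC i ζ)) = ν (cyl γ) * ν (cyl (turnC i ζ)) := by
  apply h.mul
  rintro x ⟨k, hk, rfl⟩ y ⟨k', hk', rfl⟩ heq
  have h1 := hγ.2 k hk
  rw [heq, Pi.add_apply, hγ.1] at h1
  rcases take_turnC hlat hk' with ⟨_, h2⟩ | ⟨_, h2⟩ | ⟨_, h2⟩
  · rw [h2] at h1; simp at h1
  · rw [h2] at h1; simp at h1
  · rw [h2] at h1; linarith

theorem turn_mul2 {ν : Measure (ℕ → Step d)} (h : Law ν) {i : Fin d} {L : ℤ}
    {γ : List (Step d)} (hγ : Hit i L γ) {ζ : List (Step d)} (hlat : ∀ e ∈ ζ, e.1 ≠ i) :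
    ν (cyl (γ ++ turnC i ζ) ∩ shift (γ ++ turnC i ζ).length ⁻¹' Ev (AvQ i γ (endp ζ))) =
      ν (cyl (γ ++ turnC i ζ)) * ν (Ev (AvQ i γ (endp ζ))) := by
  apply ext_mul_Ev h
  rintro m hm x hx y ⟨k, hk, rfl⟩ heq
  obtain ⟨h0, h1, h2⟩ := hm k hk.le
  rw [endp_append, endp_turnC] at heq
  rcases sites_append hx with ⟨k', hk', rfl⟩ | ⟨w, ⟨k', hk', rfl⟩, rfl⟩
  · refine h1 k' hk'.le ?_
    rw [heq]; abel
  · rw [add_assoc] at heq
    have heq' := add_left_cancel heq
    rcases take_turnC hlat hk' with ⟨_, h3⟩ | ⟨_, h3⟩ | ⟨_, h3⟩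
    · refine h1 γ.length le_rfl ?_
      rw [List.take_length]
      rw [h3] at heq'
      rw [add_assoc, add_assoc, ← add_assoc (vec _), ← heq', add_zero]
    · rw [h3, add_assoc] at heq'
      exact h2 (add_left_cancel (a := vec (i, true)) (by rw [← heq', add_zero]))
    · have h4 := congrFun heq' i
      simp only [Pi.add_apply, h3, vec_up, endp_lateral hlat] at h4
      linarith

/-- the turn event -/
def turnE (i : Fin d) (ζ : List (Step d)) (γ : List (Step d)) : Set (ℕ → Step d) :=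
  cyl (γ ++ turnC i ζ) ∩ shift (γ ++ turnC i ζ).length ⁻¹' Ev (AvQ i γ (endp ζ))

theorem measurableSet_turnE (i : Fin d) (ζ γ : List (Step d)) : MeasurableSet (turnE i ζ γ) :=
  (measurableSet_cyl _).inter (measurable_shift _ (measurableSet_Ev _))

/-- the levels on the turn event -/
theorem turnE_levels {i : Fin d} {L : ℤ} {γ : List (Step d)} (hγ : Hit i L γ)
    {ζ : List (Step d)} (hlat : ∀ e ∈ ζ, e.1 ≠ i) {s : ℕ → Step d} (hs : s ∈ turnE i ζ γ) :
    (∀ n, pos s n i ≤ L + 2) ∧ (∃ n, pos s n i = L + 2) ∧ pos s γ.length i = L ∧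
      (∀ n < γ.length, pos s n i < L) ∧ s ∈ cyl γ := by
  obtain ⟨h1, h2⟩ := hs
  have hγs := (mem_cyl_append.1 h1).1
  have hlow : ∀ n < γ.length, pos s n i < L := fun n hn => by
    rw [pos_of_mem_cyl hγs hn.le]; exact hγ.2 n hn
  refine ⟨?_, ?_, ?_, hlow, hγs⟩
  · intro n
    rcases lt_or_ge n γ.length with hn | hn
    · linarith [hlow n hn]
    · obtain ⟨k, rfl⟩ := Nat.exists_eq_add_of_le hn
      rcases lt_or_ge k (turnC i ζ).length with hk | hk
      · rw [pos_of_mem_cyl h1 (by rw [List.length_append]; omega), List.take_length_add_append,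
          endp_append, Pi.add_apply, hγ.1]
        rcases take_turnC hlat hk with ⟨_, h3⟩ | ⟨_, h3⟩ | ⟨_, h3⟩
        · rw [h3]; simp
        · rw [h3]; simp
        · rw [h3]
      · obtain ⟨r, rfl⟩ := Nat.exists_eq_add_of_le hk
        rw [← add_assoc, ← List.length_append, pos_add, pos_of_mem_cyl_length h1]
        have h4 := (h2 r).1
        rw [Pi.add_apply, endp_append, endp_turnC, Pi.add_apply, Pi.add_apply, hγ.1,
          endp_lateral hlat, vec_up]
        have h5 : pos (shift (γ ++ turnC i ζ).length s) r i ≤ 0 := h4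
        linarith
  · refine ⟨γ.length + 2, ?_⟩
    have hlen := turnC_length i ζ
    rw [pos_of_mem_cyl h1 (by rw [List.length_append]; omega), List.take_length_add_append,
          endp_append, Pi.add_apply, hγ.1]
    rcases take_turnC hlat (show 2 < (turnC i ζ).length by omega) with ⟨h, _⟩ | ⟨h, _⟩ | ⟨_, h3⟩
    · omega
    · omega
    · rw [h3]
  · rw [pos_of_mem_cyl_length hγs, hγ.1]

theorem turnE_disj {i : Fin d} {L L' : ℤ} {γ γ' : List (Step d)} (hγ : Hit i L γ)
    (hγ' : Hit i L' γ') {ζ : List (Step d)} (hlat : ∀ e ∈ ζ, e.1 ≠ i) {s : ℕ → Step d}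
    (hs : s ∈ turnE i ζ γ) (hs' : s ∈ turnE i ζ γ') : L = L' ∧ γ = γ' := by
  obtain ⟨a1, ⟨n, a2⟩, a3, a4, a5⟩ := turnE_levels hγ hlat hs
  obtain ⟨b1, ⟨n', b2⟩, b3, b4, b5⟩ := turnE_levels hγ' hlat hs'
  have hL : L = L' := by
    have := b1 n; have := a1 n'; linarith
  refine ⟨hL, ?_⟩
  subst hL
  have hlen : γ.length = γ'.length := by
    rcases lt_trichotomy γ.length γ'.length with h | h | h
    · exact absurd a3 (b4 _ h).ne
    · exact h
    · exact absurd b3 (a4 _ h).ne
  rw [mem_cyl_iff] at a5 b5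
  rw [← a5, ← b5, hlen]

open Classical in
theorem turn {ν : Measure (ℕ → Step d)} (h : Law ν) (i : Fin d) (z : Fin d → ℤ) (hz : z i = 0)
    (ζ : List (Step d)) (hζ : endp ζ = z) (hlat : ∀ e ∈ ζ, e.1 ≠ i) :
    (∑' L : ℕ, ∑' γ : List (Step d),
      if Hit i ((L : ℤ) + 1) γ then ν (cyl γ) * ν (Ev (AvQ i γ z)) else 0) *
      ν (cyl ([(i, true), (i, true)] ++ ζ ++ [(i, false)])) ≤ 1 := by
  subst hζ
  rw [← ENNReal.tsum_prod, ← ENNReal.tsum_mul_right]
  set E : ℕ × List (Step d) → Set (ℕ → Step d) := fun p =>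
    if Hit i ((p.1 : ℤ) + 1) p.2 then turnE i ζ p.2 else ∅ with hE
  have h1 : ∀ p : ℕ × List (Step d),
      (if Hit i ((p.1 : ℤ) + 1) p.2 then ν (cyl p.2) * ν (Ev (AvQ i p.2 (endp ζ))) else 0) *
      ν (cyl ([(i, true), (i, true)] ++ ζ ++ [(i, false)])) = ν (E p) := by
    rintro ⟨L, γ⟩
    simp only [hE]
    split_ifs with hγ
    · rw [turnE, turn_mul2 h hγ hlat, turn_mul1 h hγ hlat, turnC]
      ring
    · simp
  simp_rw [h1]
  rw [← measure_iUnion]
  · rw [← h.prob]
    exact measure_mono (Set.subset_univ _)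
  · rintro ⟨L, γ⟩ ⟨L', γ'⟩ hne
    rw [Function.onFun, Set.disjoint_left]
    intro s hs hs'
    simp only [hE] at hs hs'
    split_ifs at hs hs' with hγ hγ'
    · obtain ⟨hL, hg⟩ := turnE_disj hγ hγ' hlat hs hs'
      apply hne
      have : L = L' := by
        have := hL; omega
      rw [this, hg]
    all_goals simp at hs hs'
  · rintro ⟨L, γ⟩
    simp only [hE]
    split_ifs
    · exact measurableSet_turnE _ _ _
    · exact MeasurableSet.empty

end Vale.Agent.Lib.P147
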